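import Vale.Agent.P192.R2.H584.Defs

/-!
# P192: lifting homomorphisms of finitely presented groups along a tower of algebras
-/

namespace Vale.Agent.P192.H584

/-- A tower of quotients `R₀ → A 0 → A 1 → ... → B` of an algebra `R₀` whose kernels
exhaust the kernel of `R₀ → B`. -/
structure Tower (F : Type*) [Field F] (R₀ : Type*) [Ring R₀] [Algebra F R₀] (A : ℕ → Type*)
    [∀ N, Ring (A N)] [∀ N, Algebra F (A N)] (B : Type*) [Ring B] [Algebra F B] where
  q : ∀ N, R₀ →ₐ[F] A N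
  qinf : R₀ →ₐ[F] B
  t : ∀ N N', N ≤ N' → A N →ₐ[F] A N'
  p : ∀ N, A N →ₐ[F] B
  q_surj : ∀ N, Function.Surjective (q N)
  qinf_surj : Function.Surjective qinf
  t_q : ∀ N N' h a, t N N' h (q N a) = q N' a
  p_q : ∀ N a, p N (q N a) = qinf a
  exact : ∀ a b, qinf a = qinf b → ∃ N, q N a = q N b

variable {F : Type*} [Field F] {R₀ : Type*} [Ring R₀] [Algebra F R₀] {A : ℕ → Type*}
    [∀ N, Ring (A N)] [∀ N, Algebra F (A N)] {B : Type*} [Ring B] [Algebra F B]

namespace Tower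

variable (T : Tower F R₀ A B)
include T

theorem exact' {a b : R₀} (h : T.qinf a = T.qinf b) : ∃ N, ∀ N' ≥ N, T.q N' a = T.q N' b := by
  obtain ⟨N, hN⟩ := T.exact a b h
  refine ⟨N, fun N' hN' => ?_⟩
  rw [← T.t_q N N' hN', ← T.t_q N N' hN', hN]

theorem exact_finset {ι : Type*} (s : Finset ι) (a b : ι → R₀)
    (h : ∀ i ∈ s, T.qinf (a i) = T.qinf (b i)) :
    ∃ N, ∀ N' ≥ N, ∀ i ∈ s, T.q N' (a i) = T.q N' (b i) := by
  classical
  choose! f hf using fun i hi => T.exact' (h i hi)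
  refine ⟨s.sup f, fun N' hN' i hi => hf i hi N' ((Finset.le_sup hi).trans hN')⟩

theorem p_t (N N' : ℕ) (h : N ≤ N') (a : A N) : T.p N' (T.t N N' h a) = T.p N a := by
  obtain ⟨a, rfl⟩ := T.q_surj N a
  rw [T.t_q, T.p_q, T.p_q]

theorem lift_fp {Γ : Type*} [Group Γ] (hΓ : Group.IsFinitelyPresented Γ) (φ : Γ →* Bˣ) :
    ∃ N, ∃ ψ : Γ →* (A N)ˣ, ∀ γ, T.p N (ψ γ : A N) = φ γ := by
  classical
  obtain ⟨n, π, hπ, s, hs, hsπ⟩ := hΓ.out
  -- units for the generators
  have h1 : ∀ i : Fin n, ∃ a b : R₀, T.qinf a = φ (π (FreeGroup.of i)) ∧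
      T.qinf b = ((φ (π (FreeGroup.of i)))⁻¹ : Bˣ) := fun i =>
    ⟨_, _, (T.qinf_surj _).choose_spec, (T.qinf_surj _).choose_spec⟩
  choose a b ha hb using h1
  obtain ⟨N₁, hN₁⟩ := T.exact_finset Finset.univ (fun i => a i * b i) (fun _ => 1) (by
    intro i _
    rw [map_mul, ha, hb, map_one, Units.mul_inv])
  obtain ⟨N₂, hN₂⟩ := T.exact_finset Finset.univ (fun i => b i * a i) (fun _ => 1) (by
    intro i _
    rw [map_mul, ha, hb, map_one, Units.inv_mul])
  let N := max N₁ N₂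
  let u : Fin n → (A N)ˣ := fun i =>
    { val := T.q N (a i)
      inv := T.q N (b i)
      val_inv := by
        rw [← map_mul, hN₁ N (le_max_left _ _) i (Finset.mem_univ _), map_one]
      inv_val := by
        rw [← map_mul, hN₂ N (le_max_right _ _) i (Finset.mem_univ _), map_one] }
  let θ : FreeGroup (Fin n) →* (A N)ˣ := FreeGroup.lift u
  have hθ : ∀ w, T.p N (θ w : A N) = φ (π w) := by
    intro w
    have : (Units.map (T.p N : A N →* B)).comp θ = φ.comp π := by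
      ext i
      change T.p N (θ (FreeGroup.of i) : A N) = φ (π (FreeGroup.of i))
      rw [FreeGroup.lift_apply_of]
      change T.p N (T.q N (a i)) = _
      rw [T.p_q, ha]
    exact congrArg Units.val (DFunLike.congr_fun this w)
  -- relators
  have hfin : s.Finite := hs
  have h2 : ∀ r : FreeGroup (Fin n), ∃ c : R₀, T.q N c = (θ r : A N) := fun r => T.q_surj N _
  choose c hc using h2
  obtain ⟨N₃, hN₃⟩ := T.exact_finset hfin.toFinset c (fun _ => 1) (by
    intro r hr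
    rw [Set.Finite.mem_toFinset] at hr
    have hker : r ∈ π.ker := by
      rw [← hsπ]
      exact Subgroup.subset_normalClosure hr
    rw [← T.p_q N, hc, hθ, MonoidHom.mem_ker.mp hker, map_one, map_one, Units.val_one])
  let N' := max N N₃
  let θ' : FreeGroup (Fin n) →* (A N')ˣ :=
    (Units.map (T.t N N' (le_max_left _ _) : A N →* A N')).comp θ
  have hker : π.ker ≤ θ'.ker := by
    rw [← hsπ]
    refine Subgroup.normalClosure_le_normal ?_
    intro r hr
    rw [SetLike.mem_coe, MonoidHom.mem_ker]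
    refine Units.ext ?_
    change T.t N N' (le_max_left _ _) (θ r : A N) = 1
    rw [← hc, T.t_q, hN₃ N' (le_max_right _ _) r ((Set.Finite.mem_toFinset _).mpr hr), map_one]
  let lft : (FreeGroup (Fin n) ⧸ π.ker) →* (A N')ˣ :=
    QuotientGroup.lift π.ker θ' fun g hg => MonoidHom.mem_ker.mp (hker hg)
  refine ⟨N', lft.comp (QuotientGroup.quotientKerEquivOfSurjective π hπ).symm.toMonoidHom,
    fun γ => ?_⟩
  obtain ⟨w, rfl⟩ := hπ γ
  have h3 : (QuotientGroup.quotientKerEquivOfSurjective π hπ).symm (π w) =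
      (QuotientGroup.mk w : FreeGroup (Fin n) ⧸ π.ker) := by
    rw [MulEquiv.symm_apply_eq]
    rfl
  change T.p N' (lft
    ((QuotientGroup.quotientKerEquivOfSurjective π hπ).symm (π w)) : (A N')ˣ) = _
  rw [h3]
  change T.p N' (T.t N N' (le_max_left _ _) (θ w : A N)) = _
  rw [T.p_t, hθ]

end Tower

theorem rspan_mul {C : Type*} [Ring C] [Algebra F C] {Γ : Type*} [Group Γ] (φ : Γ →* Cˣ)
    (s : Set C) {a : C} (ha : a ∈ rspan F φ s) (γ : Γ) : a * (φ γ : C) ∈ rspan F φ s := by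
  induction ha using Submodule.span_induction with
  | mem a h =>
    obtain ⟨g, hg, γ', rfl⟩ := h
    refine Submodule.subset_span ⟨g, hg, γ' * γ, ?_⟩
    simp [mul_assoc]
  | zero => rw [zero_mul]; exact Submodule.zero_mem _
  | add a b _ _ ha hb => rw [add_mul]; exact Submodule.add_mem _ ha hb
  | smul c a _ ha => rw [smul_mul_assoc]; exact Submodule.smul_mem _ _ ha

/-- If `1 ∈ rspan s` and `y g ∈ rspan s` for algebra generators `y`, then `rspan s` is
everything. -/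
theorem rspan_eq_top {C : Type*} [Ring C] [Algebra F C] {Γ : Type*} [Group Γ] (φ : Γ →* Cˣ)
    (s Y : Set C) (hY : Algebra.adjoin F Y = ⊤) (h1 : (1 : C) ∈ rspan F φ s)
    (h2 : ∀ y ∈ Y, ∀ g ∈ s, y * g ∈ rspan F φ s) : rspan F φ s = ⊤ := by
  have key : ∀ c : C, ∀ a ∈ rspan F φ s, c * a ∈ rspan F φ s := by
    intro c
    have hc : c ∈ Algebra.adjoin F Y := by rw [hY]; trivial
    induction hc using Algebra.adjoin_induction with
    | mem y hy =>
      intro a ha
      induction ha using Submodule.span_induction with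
      | mem a h =>
        obtain ⟨g, hg, γ', rfl⟩ := h
        rw [← mul_assoc]
        exact rspan_mul φ s (h2 y hy g hg) γ'
      | zero => rw [mul_zero]; exact Submodule.zero_mem _
      | add a b _ _ ha hb => rw [mul_add]; exact Submodule.add_mem _ ha hb
      | smul c a _ ha => rw [mul_smul_comm]; exact Submodule.smul_mem _ _ ha
    | algebraMap r =>
      intro a ha
      rw [← Algebra.smul_def]
      exact Submodule.smul_mem _ _ ha
    | add x y _ _ hx hy =>
      intro a ha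
      rw [add_mul]
      exact Submodule.add_mem _ (hx a ha) (hy a ha)
    | mul x y _ _ hx hy =>
      intro a ha
      rw [mul_assoc]
      exact hx _ (hy a ha)
  rw [eq_top_iff]
  intro c _
  have := key c 1 h1
  rwa [mul_one] at this

namespace Tower

variable (T : Tower F R₀ A B)
include T

/-- Membership in `rspan` lifts. -/
theorem lift_mem {Γ : Type*} [Group Γ] {φ : Γ →* Bˣ} {N₀ : ℕ} (ψ : ∀ N ≥ N₀, Γ →* (A N)ˣ)
    (h : Γ → R₀) (hψ : ∀ N hN γ, T.q N (h γ) = (ψ N hN γ : A N)) (hφ : ∀ γ, T.qinf (h γ) = φ γ)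
    (s : Set R₀) {x : R₀} (hx : T.qinf x ∈ rspan F φ (T.qinf '' s)) :
    ∃ N₁ ≥ N₀, ∀ N (_ : N ≥ N₁) (hN' : N ≥ N₀), T.q N x ∈ rspan F (ψ N hN') (T.q N '' s) := by
  -- the elements of `R₀` lifting `rspan`
  let W : Submodule F R₀ := Submodule.span F {a | ∃ g ∈ s, ∃ γ, a = g * h γ}
  have hW : rspan F φ (T.qinf '' s) ≤ W.map T.qinf.toLinearMap := by
    refine Submodule.span_le.mpr ?_
    rintro _ ⟨_, ⟨g, hg, rfl⟩, γ, rfl⟩
    refine ⟨g * h γ, Submodule.subset_span ⟨g, hg, γ, rfl⟩, ?_⟩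
    change T.qinf (g * h γ) = _
    rw [map_mul, hφ]
  obtain ⟨y, hyW, hy⟩ := hW hx
  obtain ⟨N₁, hN₁⟩ := T.exact' (a := x) (b := y) hy.symm
  refine ⟨max N₀ N₁, le_max_left _ _, fun N hN hN' => ?_⟩
  rw [hN₁ N ((le_max_right _ _).trans hN)]
  have hle : W ≤ (rspan F (ψ N hN') (T.q N '' s)).comap (T.q N).toLinearMap := by
    refine Submodule.span_le.mpr ?_
    rintro _ ⟨g, hg, γ, rfl⟩
    refine Submodule.subset_span ⟨_, ⟨g, hg, rfl⟩, γ, ?_⟩
    change T.q N (g * h γ) = _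
    rw [map_mul, hψ N hN']
  exact hle hyW

/-- **Lifting.** If `B` is finitely generated as a right module over the span of the image of
the finitely presented group `Γ`, then for large `N` a lift of `Γ` to `A N` has infinite image in
every algebra in which `A N` has infinite-dimensional image. -/
theorem main (Y : Set R₀) (hYfin : Y.Finite) (hY : Algebra.adjoin F Y = ⊤)
    {Γ : Type*} [Group Γ] (hΓ : Group.IsFinitelyPresented Γ) (φ : Γ →* Bˣ)
    (s : Set B) (hs : s.Finite) (hφ : rspan F φ s = ⊤) :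
    ∃ N, ∃ ψ : Γ →* (A N)ˣ, (∀ γ, T.p N (ψ γ : A N) = φ γ) ∧
      ∀ (C : Type*) [Ring C] [Algebra F C] (σ : A N →ₐ[F] C),
        ¬ Module.Finite F (LinearMap.range σ.toLinearMap) →
        ¬ Finite ((Units.map (σ : A N →* C)).comp ψ).range := by
  classical
  obtain ⟨N₀, ψ₀, hψ₀⟩ := T.lift_fp hΓ φ
  choose h hh using fun γ => T.q_surj N₀ (ψ₀ γ : A N₀)
  let ψ : ∀ N ≥ N₀, Γ →* (A N)ˣ := fun N hN =>
    (Units.map (T.t N₀ N hN : A N₀ →* A N)).comp ψ₀
  have hψ : ∀ N hN γ, T.q N (h γ) = (ψ N hN γ : A N) := by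
    intro N hN γ
    change _ = T.t N₀ N hN (ψ₀ γ : A N₀)
    rw [← hh, T.t_q]
  have hφh : ∀ γ, T.qinf (h γ) = φ γ := by
    intro γ
    rw [← T.p_q N₀, hh, hψ₀]
  have hpψ : ∀ N hN γ, T.p N (ψ N hN γ : A N) = φ γ := by
    intro N hN γ
    rw [← hψ, T.p_q, hφh]
  -- lifts of the module generators
  choose g hg using T.qinf_surj
  let s₀ : Set R₀ := g '' s
  have hs₀ : T.qinf '' s₀ = s := by
    ext a
    constructor
    · rintro ⟨_, ⟨b, hb, rfl⟩, rfl⟩
      rwa [hg]
    · intro ha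
      exact ⟨g a, ⟨a, ha, rfl⟩, hg a⟩
  have hs₀fin : s₀.Finite := hs.image g
  -- the finitely many conditions
  have key : ∀ x : R₀, ∃ N₁, ∀ N (_ : N ≥ N₁) (hN' : N ≥ N₀),
      T.q N x ∈ rspan F (ψ N hN') (T.q N '' s₀) := by
    intro x
    obtain ⟨N₁, -, hN₁⟩ := T.lift_mem ψ h hψ hφh s₀ (x := x) (by
      rw [hs₀, hφ]; trivial)
    exact ⟨N₁, hN₁⟩
  choose f hf using key
  let S : Set R₀ := insert 1 (Set.image2 (fun y g => y * g) Y s₀)
  have hS : S.Finite := (hYfin.image2 _ hs₀fin).insert 1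
  let N := max N₀ (hS.toFinset.sup f)
  have hN₀ : N ≥ N₀ := le_max_left _ _
  have hall : ∀ x ∈ S, T.q N x ∈ rspan F (ψ N hN₀) (T.q N '' s₀) := by
    intro x hx
    refine hf x N ?_ hN₀
    exact (Finset.le_sup (f := f) ((Set.Finite.mem_toFinset _).mpr hx)).trans (le_max_right _ _)
  have htop : rspan F (ψ N hN₀) (T.q N '' s₀) = ⊤ := by
    refine rspan_eq_top (ψ N hN₀) _ (T.q N '' Y) ?_ ?_ ?_
    · rw [← AlgHom.map_adjoin, hY, Algebra.map_top, AlgHom.range_eq_top]
      exact T.q_surj N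
    · have := hall 1 (Set.mem_insert _ _)
      rwa [map_one] at this
    · rintro _ ⟨y, hy, rfl⟩ _ ⟨g, hg, rfl⟩
      rw [← map_mul]
      exact hall _ (Set.mem_insert_of_mem _ ⟨y, hy, g, hg, rfl⟩)
  refine ⟨N, ψ N hN₀, hpψ N hN₀, fun C _ _ σ hσ hfin => hσ ?_⟩
  have h1 : LinearMap.range σ.toLinearMap ≤ Submodule.span F
      (Set.image2 (fun a b => a * b) (σ '' (T.q N '' s₀))
        ((fun u : Cˣ => (u : C)) '' (((Units.map (σ : A N →* C)).comp (ψ N hN₀)).range : Set Cˣ))) := by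
    rw [LinearMap.range_eq_map, ← htop, rspan, Submodule.map_span, Submodule.span_le]
    rintro _ ⟨_, ⟨g, hg, γ, rfl⟩, rfl⟩
    refine Submodule.subset_span ⟨σ g, ⟨g, hg, rfl⟩, σ (ψ N hN₀ γ : A N), ⟨_, ⟨γ, rfl⟩, rfl⟩, ?_⟩
    exact (map_mul σ _ _).symm
  have h2 : (Set.image2 (fun a b => a * b) (σ '' (T.q N '' s₀))
      ((fun u : Cˣ => (u : C)) ''
        (((Units.map (σ : A N →* C)).comp (ψ N hN₀)).range : Set Cˣ))).Finite := by
    refine Set.Finite.image2 _ ((hs₀fin.image _).image _) (Set.Finite.image _ ?_)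
    exact Set.toFinite _
  have h3 := FiniteDimensional.span_of_finite F h2
  exact Submodule.finiteDimensional_of_le h1

end Tower

end Vale.Agent.P192.H584
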