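import Vale.Agent.P192.R2.H584.Rep
import Vale.Agent.P192.R2.H584.Tower

/-!
# P192: algebras given by homogeneous relators and finitely presented groups mapping to them
-/

namespace Vale.Agent.P192.H584

open Polynomial Matrix

variable {F : Type*} [Field F] {X : Type*}

theorem quo_surj (R : ℕ → Finset (FreeAlgebra F X)) : Function.Surjective (quo R) :=
  RingQuot.mkAlgHom_surjective F (Rel R)

theorem quo_rel {R : ℕ → Finset (FreeAlgebra F X)} {k : ℕ} {a : FreeAlgebra F X}
    (h : a ∈ R k) : quo R a = 0 := by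
  have := RingQuot.mkAlgHom_rel F (s := Rel R) (x := a) (y := 0) ⟨k, h, rfl⟩
  rw [map_zero] at this
  exact this

/-- The homomorphism from `Alg R` induced by a homomorphism killing the relators. -/
noncomputable def liftAlg {C : Type*} [Ring C] [Algebra F C] (R : ℕ → Finset (FreeAlgebra F X))
    (f : FreeAlgebra F X →ₐ[F] C) (h : ∀ k, ∀ a ∈ R k, f a = 0) : Alg R →ₐ[F] C :=
  RingQuot.liftAlgHom F ⟨f, fun {a b} hab => by
    obtain ⟨k, ha, hb⟩ := hab
    rw [h k a ha, hb, map_zero]⟩

theorem liftAlg_quo {C : Type*} [Ring C] [Algebra F C] (R : ℕ → Finset (FreeAlgebra F X))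
    (f : FreeAlgebra F X →ₐ[F] C) (h : ∀ k, ∀ a ∈ R k, f a = 0) (a : FreeAlgebra F X) :
    liftAlg R f h (quo R a) = f a :=
  RingQuot.liftAlgHom_mkAlgHom_apply F f _ a

/-- The relators of degree at most `N`. -/
def trunc (R : ℕ → Finset (FreeAlgebra F X)) (N k : ℕ) : Finset (FreeAlgebra F X) :=
  if k ≤ N then R k else ∅

theorem mem_trunc {R : ℕ → Finset (FreeAlgebra F X)} {N k : ℕ} {a : FreeAlgebra F X} :
    a ∈ trunc R N k ↔ k ≤ N ∧ a ∈ R k := by
  unfold trunc
  split_ifs with h <;> simp [h]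

/-- The congruence of being equal in `Alg (trunc R N)` for some `N`. -/
def limCon (R : ℕ → Finset (FreeAlgebra F X)) : RingCon (FreeAlgebra F X) where
  r a b := ∃ N, ∀ N' ≥ N, quo (trunc R N') a = quo (trunc R N') b
  iseqv :=
    { refl := fun _ => ⟨0, fun _ _ => rfl⟩
      symm := fun ⟨N, h⟩ => ⟨N, fun N' h' => (h N' h').symm⟩
      trans := fun ⟨N, h⟩ ⟨M, g⟩ => ⟨max N M, fun N' h' =>
        (h N' ((le_max_left _ _).trans h')).trans (g N' ((le_max_right _ _).trans h'))⟩ }
  add' := by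
    rintro a b c e ⟨N, h⟩ ⟨M, g⟩
    refine ⟨max N M, fun N' h' => ?_⟩
    rw [map_add, map_add, h N' ((le_max_left _ _).trans h'), g N' ((le_max_right _ _).trans h')]
  mul' := by
    rintro a b c e ⟨N, h⟩ ⟨M, g⟩
    refine ⟨max N M, fun N' h' => ?_⟩
    rw [map_mul, map_mul, h N' ((le_max_left _ _).trans h'), g N' ((le_max_right _ _).trans h')]

theorem quo_exact (R : ℕ → Finset (FreeAlgebra F X)) (a b : FreeAlgebra F X)
    (h : quo R a = quo R b) : ∃ N, quo (trunc R N) a = quo (trunc R N) b := by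
  have hR : ∀ ⦃x y : FreeAlgebra F X⦄, Rel R x y → (limCon R).mk' x = (limCon R).mk' y := by
    rintro x y ⟨k, hx, rfl⟩
    refine (RingCon.eq _).mpr ⟨k, fun N' h' => ?_⟩
    rw [quo_rel (mem_trunc.mpr ⟨h', hx⟩), map_zero]
  have h1 : RingQuot.lift ⟨(limCon R).mk', hR⟩ (RingQuot.mkRingHom (Rel R) a) =
      RingQuot.lift ⟨(limCon R).mk', hR⟩ (RingQuot.mkRingHom (Rel R) b) := by
    congr 1
    rw [← RingQuot.mkAlgHom_coe F]
    exact h
  rw [RingQuot.lift_mkRingHom_apply, RingQuot.lift_mkRingHom_apply] at h1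
  obtain ⟨N, hN⟩ := (RingCon.eq _).mp h1
  exact ⟨N, hN N le_rfl⟩

/-- The tower of the truncations of `Alg R`. -/
noncomputable def towerAlg (R : ℕ → Finset (FreeAlgebra F X)) :
    Tower F (FreeAlgebra F X) (fun N => Alg (trunc R N)) (Alg R) where
  q N := quo (trunc R N)
  qinf := quo R
  t N N' h := liftAlg (trunc R N) (quo (trunc R N')) fun _ _ ha =>
    quo_rel (mem_trunc.mpr ⟨(mem_trunc.mp ha).1.trans h, (mem_trunc.mp ha).2⟩)
  p N := liftAlg (trunc R N) (quo R) fun _ _ ha => quo_rel (mem_trunc.mp ha).2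
  q_surj _ := quo_surj _
  qinf_surj := quo_surj _
  t_q _ _ _ a := liftAlg_quo _ _ _ a
  p_q _ a := liftAlg_quo _ _ _ a
  exact := quo_exact R

/-- The tower of matrix algebras over the algebras of a tower. -/
noncomputable def Tower.matrix {R₀ : Type*} [Ring R₀] [Algebra F R₀] {A : ℕ → Type*}
    [∀ N, Ring (A N)] [∀ N, Algebra F (A N)] {B : Type*} [Ring B] [Algebra F B]
    (T : Tower F R₀ A B) (r : ℕ) :
    Tower F (Matrix (Fin r) (Fin r) R₀) (fun N => Matrix (Fin r) (Fin r) (A N))
      (Matrix (Fin r) (Fin r) B) where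
  q N := (T.q N).mapMatrix
  qinf := T.qinf.mapMatrix
  t N N' h := (T.t N N' h).mapMatrix
  p N := (T.p N).mapMatrix
  q_surj N := by
    intro M
    choose f hf using T.q_surj N
    exact ⟨M.map f, by ext i j; exact hf _⟩
  qinf_surj := by
    intro M
    choose f hf using T.qinf_surj
    exact ⟨M.map f, by ext i j; exact hf _⟩
  t_q N N' h a := by
    ext i j
    exact T.t_q N N' h (a i j)
  p_q N a := by
    ext i j
    exact T.p_q N (a i j)
  exact a b h := by
    obtain ⟨N, hN⟩ := T.exact_finset (Finset.univ : Finset (Fin r × Fin r))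
      (fun ij => a ij.1 ij.2) (fun ij => b ij.1 ij.2) (fun ij _ => by
        exact congrFun (congrFun h ij.1) ij.2)
    refine ⟨N, ?_⟩
    ext i j
    exact hN N le_rfl (i, j) (Finset.mem_univ _)

/-- Generators of the matrix algebra over the free algebra. -/
def genMat (F : Type*) [Field F] (X : Type*) (r : ℕ) :
    Set (Matrix (Fin r) (Fin r) (FreeAlgebra F X)) :=
  Set.range (fun x : X => scalarAlgHom (Fin r) F (FreeAlgebra.ι F x)) ∪
    Set.range (fun ij : Fin r × Fin r => single ij.1 ij.2 (1 : FreeAlgebra F X))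

theorem genMat_finite [Finite X] (r : ℕ) : (genMat F X r).Finite :=
  (Set.finite_range _).union (Set.finite_range _)

theorem adjoin_genMat (r : ℕ) : Algebra.adjoin F (genMat F X r) = ⊤ := by
  rw [eq_top_iff]
  intro M _
  have h1 : ∀ a : FreeAlgebra F X,
      scalarAlgHom (Fin r) F a ∈ Algebra.adjoin F (genMat F X r) := by
    intro a
    have ha : a ∈ Algebra.adjoin F (Set.range (FreeAlgebra.ι F : X → FreeAlgebra F X)) := by
      rw [FreeAlgebra.adjoin_range_ι]; trivial
    have h2 : scalarAlgHom (Fin r) F a ∈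
        (Algebra.adjoin F (Set.range (FreeAlgebra.ι F : X → FreeAlgebra F X))).map
          (scalarAlgHom (Fin r) F) := ⟨a, ha, rfl⟩
    rw [AlgHom.map_adjoin] at h2
    refine Algebra.adjoin_mono ?_ h2
    rintro _ ⟨_, ⟨x, rfl⟩, rfl⟩
    exact Or.inl ⟨x, rfl⟩
  have h3 : ∀ i j, ∀ a : FreeAlgebra F X,
      single i j a ∈ Algebra.adjoin F (genMat F X r) := by
    intro i j a
    have : single i j a = scalarAlgHom (Fin r) F a * single i j (1 : FreeAlgebra F X) := by
      ext i' j'
      rw [scalarAlgHom_apply, scalar_apply, diagonal_mul, single_apply, single_apply]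
      split_ifs <;> simp
    rw [this]
    exact Subalgebra.mul_mem _ (h1 a) (Algebra.subset_adjoin (Or.inr ⟨(i, j), rfl⟩))
  rw [matrix_eq_sum_single M]
  exact Subalgebra.sum_mem _ fun i _ => Subalgebra.sum_mem _ fun j _ => h3 i j _

end Vale.Agent.P192.H584
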