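import Vale.Agent.P192.R2.H584.Period

/-!
# P192: the periodic functional
-/

namespace Vale.Agent.P192.H584

open Module

variable {F : Type*} [Field F] {X : Type*}
variable {R : ℕ → Finset (FreeAlgebra F X)} {L M : ℕ → Submodule F (List X → F)} {N : ℕ}
  {lam : List X → F}

theorem ev_const_mul (c : F) (φ : List X → F) (f : FreeAlgebra F X) :
    ev F (fun v => c * φ v) f = c * ev F φ f := ev_smul F c φ f

theorem ev_mul_const (c : F) (φ : List X → F) (f : FreeAlgebra F X) :
    ev F (fun v => φ v * c) f = ev F φ f * c := by
  have : (fun v => φ v * c) = fun v => c * φ v := by funext v; ring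
  rw [this, ev_const_mul, mul_comm]

theorem ev_word_mul (φ : List X → F) (w : List X) (f : FreeAlgebra F X) :
    ev F (fun v => φ (w ++ v)) f = ev F φ (word F w * f) := by
  have h := ev_shift F φ w [] f
  rw [word_nil, mul_one] at h
  rw [h]
  simp

theorem ev_mul_word (φ : List X → F) (a : List X) (f : FreeAlgebra F X) :
    ev F (fun v => φ (v ++ a)) f = ev F φ (f * word F a) := by
  have h := ev_shift F φ [] a f
  rw [word_nil, one_mul] at h
  rw [h]
  simp

theorem Lam.internal (hlam : Lam R N L M lam) (h : Good R lD mD N N L M)
    (hR : ∀ k, ∀ f ∈ R k, f ∈ Homog F X k) {k : ℕ} (hk : k ≤ N) {f : FreeAlgebra F X}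
    (hf : f ∈ R k) (w a : List X) : ev F (fun v => lam (w ++ v ++ a)) f = 0 := by
  have hfk := hR k f hf
  by_cases hlen : w.length + k + a.length = 2 * N
  swap
  · refine ev_eq_zero F hfk fun v hv => hlam.supp _ ?_
    simp only [List.length_append]
    omega
  by_cases h1 : w.length + k ≤ N
  · -- in the first half
    obtain ⟨a1, a2, rfl, ha1, ha2⟩ : ∃ a1 a2 : List X, a = a1 ++ a2 ∧
        a1.length = N - w.length - k ∧ a2.length = N :=
      ⟨a.take (N - w.length - k), a.drop (N - w.length - k), by simp, by
        rw [List.length_take]; omega, by rw [List.length_drop]; omega⟩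
    have h2 := h.contrM le_rfl (hlam.head a2 ha2) a1 (by omega)
    have h3 := h.relM _ (Nat.sub_le _ _) _ h2 k f hf w
    rw [← ev_word_mul _ w] at h3
    rw [← h3]
    congr 2
    funext v
    simp
  · by_cases h2 : N ≤ w.length
    · obtain ⟨w1, w2, rfl, hw1, hw2⟩ : ∃ w1 w2 : List X, w = w1 ++ w2 ∧ w1.length = N ∧
          w2.length = w.length - N :=
        ⟨w.take N, w.drop N, by simp, by rw [List.length_take]; omega, by
          rw [List.length_drop]⟩
      have hw2' : w2.length ≤ N := by
        simp only [List.length_append] at hlen
        omega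
      have h3 := h.contrL le_rfl (hlam.tail w1 hw1) w2 hw2'
      have h4 := h.relL _ (Nat.sub_le _ _) _ h3 k f hf a
      rw [← ev_mul_word] at h4
      rw [← h4]
      congr 2
      funext v
      simp
    · exact hlam.junc k hk f hf (N - w.length) (by omega) (by omega) w (by omega) a

theorem Lam.boundary (hlam : Lam R N L M lam) (h : Good R lD mD N N L M)
    {k : ℕ} (hk : k ≤ N) {f : FreeAlgebra F X}
    (hf : f ∈ R k) {i : ℕ} (hi1 : 1 ≤ i) (hi2 : i < k) (w a : List X)
    (hw : w.length = 2 * N - i) (ha : a.length = 2 * N - (k - i)) :
    ev F (fun v => lam (w ++ v.take i) * lam (v.drop i ++ a)) f = 0 := by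
  obtain ⟨w1, w2, rfl, hw1, hw2⟩ : ∃ w1 w2 : List X, w = w1 ++ w2 ∧ w1.length = N ∧
      w2.length = N - i :=
    ⟨w.take N, w.drop N, by simp, by rw [List.length_take]; omega, by
      rw [List.length_drop]; omega⟩
  obtain ⟨a1, a2, rfl, ha1, ha2⟩ : ∃ a1 a2 : List X, a = a1 ++ a2 ∧
      a1.length = N - (k - i) ∧ a2.length = N :=
    ⟨a.take (N - (k - i)), a.drop (N - (k - i)), by simp, by
      rw [List.length_take]; omega, by rw [List.length_drop]; omega⟩
  have h1 := h.contrL le_rfl (hlam.tail w1 hw1) w2 (by omega)
  have h2 := h.contrM le_rfl (hlam.head a2 ha2) a1 (by omega)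
  have e1 : N - w2.length = i := by omega
  have e2 : N - a1.length = k - i := by omega
  rw [e1] at h1
  rw [e2] at h2
  have h3 := h.cross i (by omega) (k - i) (by omega) hi1 (by omega) f
    (by rwa [show i + (k - i) = k by omega]) _ h1 _ h2
  rw [← h3]
  congr 2
  funext v
  simp [tens]

/-- The product of `lam` over `s` blocks. -/
def bigS (lam : List X → F) (P : ℕ) : ℕ → List X → F
  | 0, w => if w.isEmpty then 1 else 0
  | s + 1, w => lam (w.take P) * bigS lam P s (w.drop P)

theorem bigS_zero_cons {P : ℕ} {w : List X} (hw : w ≠ []) : bigS lam P 0 w = 0 := by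
  cases w with
  | nil => exact absurd rfl hw
  | cons x w => rfl

theorem bigS_append {P : ℕ} {u : List X} (hu : u.length = P) (s : ℕ) (w : List X) :
    bigS lam P (s + 1) (u ++ w) = lam u * bigS lam P s w := by
  rw [bigS, List.take_left' hu, List.drop_left' hu]

theorem bigS_supp {P : ℕ} (hsupp : ∀ w : List X, w.length ≠ P → lam w = 0) (s : ℕ) (w : List X)
    (hw : w.length ≠ s * P) : bigS lam P s w = 0 := by
  induction s generalizing w with
  | zero => exact bigS_zero_cons fun h => hw (by rw [h]; simp)
  | succ s ih =>
    rw [bigS]
    by_cases h1 : P ≤ w.length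
    · rw [ih (w.drop P) (by
        rw [List.length_drop]
        intro h2
        apply hw
        rw [Nat.succ_mul]
        omega), mul_zero]
    · rw [hsupp (w.take P) (by rw [List.length_take]; omega), zero_mul]

theorem bigS_snoc {P : ℕ} (hsupp : ∀ w : List X, w.length ≠ P → lam w = 0)
    {u : List X} (hu : u.length = P) (s : ℕ) (w : List X) :
    bigS lam P (s + 1) (w ++ u) = bigS lam P s w * lam u := by
  by_cases hw : w.length = s * P
  swap
  · rw [bigS_supp hsupp s w hw, zero_mul]
    refine bigS_supp hsupp _ _ ?_
    rw [List.length_append, Nat.succ_mul]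
    omega
  induction s generalizing w with
  | zero =>
    have : w = [] := List.length_eq_zero_iff.mp (by simpa using hw)
    subst this
    have h0 := bigS_append (lam := lam) hu 0 []
    rw [List.append_nil] at h0
    rw [List.nil_append, h0, mul_comm]
  | succ s ih =>
    rw [Nat.succ_mul] at hw
    have h1 : (w ++ u).take P = w.take P := List.take_append_of_le_length (by omega)
    have h2 : (w ++ u).drop P = w.drop P ++ u := List.drop_append_of_le_length (by omega)
    rw [bigS, h1, h2, ih (w.drop P) (by rw [List.length_drop]; omega)]
    rw [show bigS lam P (s + 1) w = lam (w.take P) * bigS lam P s (w.drop P) from rfl]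
    ring

theorem bigS_rel (hlam : Lam R N L M lam) (h : Good R lD mD N N L M)
    (hR : ∀ k, ∀ f ∈ R k, f ∈ Homog F X k) (hR0 : R 0 = ∅) {k : ℕ} (hk : k ≤ N)
    {f : FreeAlgebra F X} (hf : f ∈ R k) (s : ℕ) (w a : List X) :
    ev F (fun v => bigS lam (2 * N) s (w ++ v ++ a)) f = 0 := by
  have hfk := hR k f hf
  have hk0 : 1 ≤ k := by
    rcases Nat.eq_zero_or_pos k with h0 | h0
    · subst h0
      rw [hR0] at hf
      exact absurd hf (Finset.notMem_empty _)
    · exact h0
  induction s generalizing w a with
  | zero =>
    refine ev_eq_zero F hfk fun v hv => bigS_zero_cons fun h0 => ?_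
    have := congrArg List.length h0
    simp only [List.length_append, List.length_nil] at this
    omega
  | succ s ih =>
    by_cases h1 : 2 * N ≤ w.length
    · obtain ⟨w1, w2, rfl, hw1⟩ : ∃ w1 w2 : List X, w = w1 ++ w2 ∧ w1.length = 2 * N :=
        ⟨w.take (2 * N), w.drop (2 * N), by simp, by rw [List.length_take]; omega⟩
      have : (fun v => bigS lam (2 * N) (s + 1) (w1 ++ w2 ++ v ++ a)) =
          fun v => lam w1 * bigS lam (2 * N) s (w2 ++ v ++ a) := by
        funext v
        rw [List.append_assoc, List.append_assoc, bigS_append hw1, ← List.append_assoc]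
      rw [this, ev_const_mul, ih, mul_zero]
    · by_cases h2 : w.length + k ≤ 2 * N
      · by_cases h3 : w.length + k + a.length < 2 * N
        · refine ev_eq_zero F hfk fun v hv => ?_
          rw [bigS, hlam.supp _ (by
            rw [List.length_take]
            simp only [List.length_append]
            omega), zero_mul]
        · obtain ⟨a1, a2, rfl, ha1⟩ : ∃ a1 a2 : List X, a = a1 ++ a2 ∧
              a1.length = 2 * N - w.length - k :=
            ⟨a.take (2 * N - w.length - k), a.drop (2 * N - w.length - k), by simp, by
              rw [List.length_take]; omega⟩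
          have h4 : ev F (fun v => bigS lam (2 * N) (s + 1) (w ++ v ++ (a1 ++ a2))) f =
              ev F (fun v => lam (w ++ v ++ a1) * bigS lam (2 * N) s a2) f := by
            refine ev_congr F hfk fun v hv => ?_
            rw [← List.append_assoc, bigS_append]
            simp only [List.length_append]
            omega
          rw [h4, ev_mul_const, hlam.internal h hR hk hf, zero_mul]
      · -- across the boundary
        have hi1 : 1 ≤ 2 * N - w.length := by omega
        have hi2 : 2 * N - w.length < k := by omega
        have h3 : ev F (fun v => bigS lam (2 * N) (s + 1) (w ++ v ++ a)) f =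
            ev F (fun v => lam (w ++ v.take (2 * N - w.length)) *
              bigS lam (2 * N) s (v.drop (2 * N - w.length) ++ a)) f := by
          refine ev_congr F hfk fun v hv => ?_
          have e1 : w ++ v ++ a = (w ++ v.take (2 * N - w.length)) ++
              (v.drop (2 * N - w.length) ++ a) := by
            conv_lhs => rw [← List.take_append_drop (2 * N - w.length) v]
            simp only [List.append_assoc]
          rw [e1, bigS_append]
          rw [List.length_append, List.length_take]
          omega
        rw [h3]
        cases s with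
        | zero =>
          refine ev_eq_zero F hfk fun v hv => ?_
          rw [bigS_zero_cons, mul_zero]
          intro h0
          have := congrArg List.length h0
          simp only [List.length_append, List.length_nil, List.length_drop] at this
          omega
        | succ s =>
          by_cases h4 : a.length < 2 * N - (k - (2 * N - w.length))
          · refine ev_eq_zero F hfk fun v hv => ?_
            rw [bigS, hlam.supp ((v.drop (2 * N - w.length) ++ a).take (2 * N)) (by
              rw [List.length_take]
              simp only [List.length_append, List.length_drop]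
              omega), zero_mul, mul_zero]
          · obtain ⟨a1, a2, rfl, ha1⟩ : ∃ a1 a2 : List X, a = a1 ++ a2 ∧
                a1.length = 2 * N - (k - (2 * N - w.length)) :=
              ⟨a.take (2 * N - (k - (2 * N - w.length))),
                a.drop (2 * N - (k - (2 * N - w.length))), by simp, by
                rw [List.length_take]; omega⟩
            have h5 : ev F (fun v => lam (w ++ v.take (2 * N - w.length)) *
                bigS lam (2 * N) (s + 1) (v.drop (2 * N - w.length) ++ (a1 ++ a2))) f =
                ev F (fun v => (lam (w ++ v.take (2 * N - w.length)) *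
                  lam (v.drop (2 * N - w.length) ++ a1)) * bigS lam (2 * N) s a2) f := by
              refine ev_congr F hfk fun v hv => ?_
              rw [← List.append_assoc, bigS_append, mul_assoc]
              simp only [List.length_append, List.length_drop]
              omega
            rw [h5, ev_mul_const, hlam.boundary h hk hf hi1 hi2 w a1 (by omega) ha1, zero_mul]

end Vale.Agent.P192.H584
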