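import Mathlib

/-!
# P192: definitions: algebras with sparse homogeneous relators and their Golod groups
-/

namespace Vale.Agent.P192.H584

open Polynomial

universe u v w

/-- The product of the letters of a word in the free algebra. -/
noncomputable def word (F : Type*) [Field F] {X : Type*} (w : List X) : FreeAlgebra F X :=
  (w.map (FreeAlgebra.ι F)).prod

/-- The homogeneous elements of degree `k` of the free algebra (and zero): the linear
combinations of words of length `k`. -/
def Homog (F : Type*) [Field F] (X : Type*) (k : ℕ) : Submodule F (FreeAlgebra F X) :=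
  Submodule.span F {a | ∃ w : List X, w.length = k ∧ word F w = a}

/-- `R k` consists of at most `n` homogeneous elements of degree `k`, and is empty for `k < d`. -/
def Sparse {F : Type u} [Field F] {I : Type v} (R : ℕ → Finset (FreeAlgebra F I)) (n d : ℕ) :
    Prop :=
  (∀ k, ∀ f ∈ R k, f ∈ Homog F I k) ∧ (∀ k, (R k).card ≤ n) ∧ ∀ k < d, R k = ∅

/-- The relations `a = 0` for `a` in one of the sets `R k`. -/
def Rel {F : Type*} [Field F] {X : Type*} (R : ℕ → Finset (FreeAlgebra F X))
    (a b : FreeAlgebra F X) : Prop :=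
  ∃ k, a ∈ R k ∧ b = 0

/-- The algebra with generators `x ∈ X` and relators the elements of the sets `R k`. -/
abbrev Alg {F : Type*} [Field F] {X : Type*} (R : ℕ → Finset (FreeAlgebra F X)) : Type _ :=
  RingQuot (Rel R)

/-- The quotient map of the free algebra onto `Alg R`. -/
noncomputable def quo {F : Type*} [Field F] {X : Type*} (R : ℕ → Finset (FreeAlgebra F X)) :
    FreeAlgebra F X →ₐ[F] Alg R :=
  RingQuot.mkAlgHom F (Rel R)

/-- The augmentation of the free algebra. -/
noncomputable def aug (F : Type*) [Field F] (X : Type*) : FreeAlgebra F X →ₐ[F] F :=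
  FreeAlgebra.lift F (fun _ => 0)

/-- The augmentation ideal of `Alg R` is nil. -/
def AugNil {F : Type u} [Field F] {I : Type v} (R : ℕ → Finset (FreeAlgebra F I)) : Prop :=
  ∀ a, aug F I a = 0 → IsNilpotent (quo R a)

/-- The elements `1 + x` of `Alg R`, `x` a free generator, are units. -/
def Units1 {F : Type u} [Field F] {I : Type v} (R : ℕ → Finset (FreeAlgebra F I)) : Prop :=
  ∀ i : I, IsUnit (1 + quo R (FreeAlgebra.ι F i))

/-- The group generated by the invertible elements `1 + x` of `Alg R`, `x` a free generator. -/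
def GolodGroup {F : Type*} [Field F] {X : Type*} (R : ℕ → Finset (FreeAlgebra F X)) :
    Subgroup (Alg R)ˣ :=
  Subgroup.closure {u | ∃ x : X, (u : Alg R) = 1 + quo R (FreeAlgebra.ι F x)}

/-- The Golod group is infinite. -/
def GInf {F : Type u} [Field F] {I : Type v} (R : ℕ → Finset (FreeAlgebra F I)) : Prop :=
  Infinite (GolodGroup R)

/-- The Golod group is a finitely generated `p`-group. -/
def GPGroup {F : Type u} [Field F] {I : Type v} (R : ℕ → Finset (FreeAlgebra F I)) (p : ℕ) :
    Prop :=
  Group.FG (GolodGroup R) ∧ IsPGroup p (GolodGroup R)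

/-- The span of the products `g * φ γ`, `g` in `s`, `γ` in the group. -/
def rspan (F : Type*) [Field F] {C : Type*} [Ring C] [Algebra F C] {Γ : Type*} [Group Γ]
    (φ : Γ →* Cˣ) (s : Set C) : Submodule F C :=
  Submodule.span F {a | ∃ g ∈ s, ∃ γ, a = g * (φ γ : C)}

/-- The group `Γ` has an infinite image in some `GL_K(F[t])`, and an element of infinite order. -/
def InfLin (F : Type u) [Field F] (Γ : Type w) [Group Γ] : Prop :=
  (∃ (K : ℕ) (ρ : Γ →* (Matrix (Fin K) (Fin K) F[X])ˣ), ¬ Finite ρ.range) ∧
    ∃ γ : Γ, ¬ IsOfFinOrder γ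

/-- Each finitely presented group with a homomorphism to the units of `Alg R` whose image meets
the Golod group in a subgroup of finite index satisfies `InfLin`. -/
def Covers {F : Type u} [Field F] {I : Type v} (R : ℕ → Finset (FreeAlgebra F I)) : Prop :=
  ∀ (Γ : Type w) [Group Γ], Group.IsFinitelyPresented Γ → ∀ φ : Γ →* (Alg R)ˣ,
    φ.range.relIndex (GolodGroup R) ≠ 0 → InfLin F Γ

/-- Each finitely presented group `Γ` with a homomorphism `φ` to the group of invertible
`r × r` matrices over `Alg R` such that the matrices `b * φ γ`, `b` in some finite set, `γ` in `Γ`,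
span the matrix algebra satisfies `InfLin`. -/
def MatCovers {F : Type u} [Field F] {I : Type v} (R : ℕ → Finset (FreeAlgebra F I)) (r : ℕ) :
    Prop :=
  ∀ (Γ : Type w) [Group Γ], Group.IsFinitelyPresented Γ →
    ∀ (φ : Γ →* (Matrix (Fin r) (Fin r) (Alg R))ˣ) (s : Set (Matrix (Fin r) (Fin r) (Alg R))),
    s.Finite → rspan F φ s = ⊤ → InfLin F Γ

end Vale.Agent.P192.H584
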