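import Vale.Agent.P192.R2.H584.Defs

/-!
# P192: definitions: sparse relators deep in the Zassenhaus filtration
-/

namespace Vale.Agent.P192.H584

universe u v

/-- The subgroup of the free group generated by the powers `h ^ p ^ b`, `h` in the `a`-th term of
the lower central series, `a * p ^ b ≥ d` (the terms are counted from `1` here, from `0` in
Mathlib). By a theorem of Lazard it is the `d`-th term of the Zassenhaus filtration. -/
def Zass (p : ℕ) (X : Type v) (d : ℕ) : Subgroup (FreeGroup X) :=
  Subgroup.closure {g | ∃ a b : ℕ, d ≤ (a + 1) * p ^ b ∧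
    ∃ h ∈ Subgroup.lowerCentralSeries (⊤ : Subgroup (FreeGroup X)) a, g = h ^ p ^ b}

/-- The relators `g i` lie in the terms `d i` of the Zassenhaus filtration of the free group, where
`d i` is greater than `P = p ^ (c + |X|)`, and each number `k` lies in at most `n` of the intervals
`[d i, P * |g i|]`. -/
def SparseRel (p c n : ℕ) {X : Type v} [Fintype X] [DecidableEq X] {ι : Type u}
    (g : ι → FreeGroup X) (d : ι → ℕ) : Prop :=
  (∀ i, g i ∈ Zass p X (d i)) ∧ (∀ i, p ^ (c + Fintype.card X) < d i) ∧
    ∀ k, {i | d i ≤ k ∧ k ≤ p ^ (c + Fintype.card X) * (g i).norm}.encard ≤ n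

end Vale.Agent.P192.H584
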