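import Vale.Agent.P192.R2.H584.Fun

/-!
# P192: dimension counts in spaces of functions on words
-/

namespace Vale.Agent.P192.H584

open Module

variable {F : Type*} [Field F] {X : Type*}

/-- Functions `ψ` with `ψ [] = 0` all of whose `w ↦ ψ (x w)` lie in `L`. -/
def consExt (L : Submodule F (List X → F)) : Submodule F (List X → F) where
  carrier := {ψ | ψ [] = 0 ∧ ∀ x, (fun w => ψ (x :: w)) ∈ L}
  add_mem' := by
    rintro a b ⟨ha, ha'⟩ ⟨hb, hb'⟩
    refine ⟨by simp [ha, hb], fun x => ?_⟩
    exact L.add_mem (ha' x) (hb' x)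
  zero_mem' := ⟨rfl, fun _ => L.zero_mem⟩
  smul_mem' := by
    rintro c a ⟨ha, ha'⟩
    refine ⟨by simp [ha], fun x => ?_⟩
    exact L.smul_mem c (ha' x)

/-- Functions `ψ` with `ψ [] = 0` all of whose `w ↦ ψ (w x)` lie in `L`. -/
def snocExt (L : Submodule F (List X → F)) : Submodule F (List X → F) where
  carrier := {ψ | ψ [] = 0 ∧ ∀ x, (fun w => ψ (w ++ [x])) ∈ L}
  add_mem' := by
    rintro a b ⟨ha, ha'⟩ ⟨hb, hb'⟩
    refine ⟨by simp [ha, hb], fun x => ?_⟩
    exact L.add_mem (ha' x) (hb' x)
  zero_mem' := ⟨rfl, fun _ => L.zero_mem⟩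
  smul_mem' := by
    rintro c a ⟨ha, ha'⟩
    refine ⟨by simp [ha], fun x => ?_⟩
    exact L.smul_mem c (ha' x)

/-- `consExt L` is a power of `L`. -/
noncomputable def consEquiv (L : Submodule F (List X → F)) : consExt L ≃ₗ[F] (X → L) where
  toFun ψ := fun x => ⟨fun w => ψ.1 (x :: w), ψ.2.2 x⟩
  map_add' _ _ := rfl
  map_smul' _ _ := rfl
  invFun g := ⟨fun w => match w with
    | [] => 0
    | x :: w => (g x).1 w, rfl, fun x => (g x).2⟩
  left_inv ψ := by
    ext w
    match w with
    | [] => exact ψ.2.1.symm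
    | x :: w => rfl
  right_inv g := rfl

/-- `snocExt L` is a power of `L`. -/
noncomputable def snocEquiv (L : Submodule F (List X → F)) : snocExt L ≃ₗ[F] (X → L) where
  toFun ψ := fun x => ⟨fun w => ψ.1 (w ++ [x]), ψ.2.2 x⟩
  map_add' _ _ := rfl
  map_smul' _ _ := rfl
  invFun g := ⟨fun w => match w.reverse with
    | [] => 0
    | x :: w => (g x).1 w.reverse, by
      refine ⟨by simp, fun x => ?_⟩
      have : (fun w : List X => (match (w ++ [x]).reverse with
        | [] => (0 : F)
        | x :: w => (g x).1 w.reverse)) = (g x).1 := by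
        funext w
        simp
      rw [this]
      exact (g x).2⟩
  left_inv ψ := by
    ext w
    rcases List.eq_nil_or_concat w with h | ⟨w, x, h⟩
    · subst h
      exact ψ.2.1.symm
    · subst h
      simp
  right_inv g := by
    funext x
    ext w
    simp

theorem finrank_consExt [Fintype X] (L : Submodule F (List X → F)) [FiniteDimensional F L] :
    finrank F (consExt L) = Fintype.card X * finrank F L := by
  rw [(consEquiv L).finrank_eq, Module.finrank_pi_fintype]
  simp

theorem finrank_snocExt [Fintype X] (L : Submodule F (List X → F)) [FiniteDimensional F L] :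
    finrank F (snocExt L) = Fintype.card X * finrank F L := by
  rw [(snocEquiv L).finrank_eq, Module.finrank_pi_fintype]
  simp

theorem finite_consExt [Finite X] (L : Submodule F (List X → F)) [FiniteDimensional F L] :
    FiniteDimensional F (consExt L) := Module.Finite.equiv (consEquiv L).symm

theorem finite_snocExt [Finite X] (L : Submodule F (List X → F)) [FiniteDimensional F L] :
    FiniteDimensional F (snocExt L) := Module.Finite.equiv (snocEquiv L).symm

section Abs

variable {V : Type*} [AddCommGroup V] [Module F V]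

/-- A condition `K` costs at most `d` dimensions below `E`. -/
def Cost (E K : Submodule F V) (d : ℕ) : Prop :=
  ∀ A ≤ E, finrank F A ≤ finrank F (A ⊓ K : Submodule F V) + d

theorem cost_of_map {E K : Submodule F V} [FiniteDimensional F E] {W : Type*} [AddCommGroup W]
    [Module F W] [FiniteDimensional F W] (g : E →ₗ[F] W) (hg : ∀ ψ : E, g ψ = 0 → (ψ : V) ∈ K)
    {d : ℕ} (hd : finrank F W ≤ d) : Cost E K d := by
  intro A hA
  have : FiniteDimensional F A := Submodule.finiteDimensional_of_le hA
  let h : A →ₗ[F] W := g ∘ₗ Submodule.inclusion hA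
  have h1 := h.finrank_range_add_finrank_ker
  have h2 : finrank F (LinearMap.range h) ≤ finrank F W := Submodule.finrank_le _
  have h3 : finrank F (LinearMap.ker h) ≤ finrank F (A ⊓ K : Submodule F V) := by
    have : FiniteDimensional F (A ⊓ K : Submodule F V) :=
      Submodule.finiteDimensional_of_le (inf_le_left : A ⊓ K ≤ A)
    rw [(Submodule.equivMapOfInjective A.subtype (Submodule.injective_subtype A)
      (LinearMap.ker h)).finrank_eq]
    refine Submodule.finrank_mono ?_
    rintro _ ⟨ψ, hψ, rfl⟩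
    exact ⟨ψ.2, hg ⟨ψ.1, hA ψ.2⟩ hψ⟩
  omega

theorem cost_iInf {E : Submodule F V} [FiniteDimensional F E] {ι : Type*} (s : Finset ι)
    (K : ι → Submodule F V) (d : ι → ℕ) (h : ∀ a ∈ s, Cost E (K a) (d a)) :
    finrank F E ≤ finrank F (E ⊓ ⨅ a ∈ s, K a : Submodule F V) + ∑ a ∈ s, d a := by
  classical
  induction s using Finset.induction_on with
  | empty =>
    rw [show (⨅ a ∈ (∅ : Finset ι), K a) = ⊤ by simp, inf_top_eq]
    simp
  | insert a s ha ih =>
    have h1 := ih fun b hb => h b (Finset.mem_insert_of_mem hb)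
    have h2 := h a (Finset.mem_insert_self _ _) (E ⊓ ⨅ a ∈ s, K a) inf_le_left
    rw [Finset.sum_insert ha]
    have h3 : (E ⊓ ⨅ b ∈ insert a s, K b) = (E ⊓ ⨅ b ∈ s, K b) ⊓ K a := by
      rw [Finset.iInf_insert, inf_assoc, inf_comm (K a)]
    rw [h3]
    omega

theorem exists_finrank_eq (A : Submodule F V) [FiniteDimensional F A] {l : ℕ}
    (hl : l ≤ finrank F A) : ∃ B ≤ A, finrank F B = l := by
  let b := Module.finBasis F A
  let v : Fin l → V := fun i => (b (Fin.castLE hl i) : V)
  have hv : LinearIndependent F v := by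
    have h1 : LinearIndependent F (fun i => (b i : V)) :=
      b.linearIndependent.map' A.subtype (Submodule.ker_subtype A)
    exact h1.comp _ (Fin.castLE_injective hl)
  refine ⟨Submodule.span F (Set.range v), ?_, ?_⟩
  · rw [Submodule.span_le]
    rintro _ ⟨i, rfl⟩
    exact (b _).2
  · rw [finrank_span_eq_card hv, Fintype.card_fin]

/-- The abstract step. -/
theorem exists_step {E : Submodule F V} [FiniteDimensional F E] {ι : Type*} (s : Finset ι)
    (K : ι → Submodule F V) (d : ι → ℕ) (h : ∀ a ∈ s, Cost E (K a) (d a)) {l : ℕ}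
    (hl : l + ∑ a ∈ s, d a ≤ finrank F E) :
    ∃ B ≤ E, FiniteDimensional F B ∧ finrank F B = l ∧ ∀ a ∈ s, B ≤ K a := by
  have h1 := cost_iInf s K d h
  have : FiniteDimensional F (E ⊓ ⨅ a ∈ s, K a : Submodule F V) :=
    Submodule.finiteDimensional_of_le (inf_le_left : E ⊓ ⨅ a ∈ s, K a ≤ E)
  obtain ⟨B, hB, hBl⟩ := exists_finrank_eq (E ⊓ ⨅ a ∈ s, K a) (l := l) (by omega)
  refine ⟨B, hB.trans inf_le_left, Submodule.finiteDimensional_of_le (hB.trans inf_le_left), hBl,
    fun a ha => ?_⟩
  exact hB.trans (inf_le_right.trans (iInf₂_le a ha))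

end Abs

end Vale.Agent.P192.H584
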