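import Vale.Agent.P192.R2.H584.Good

/-!
# P192: existence of the left and right spaces
-/

namespace Vale.Agent.P192.H584

open Module

variable {F : Type*} [Field F] {X : Type*}

/-- Dimensions of the left spaces. -/
def lD (i : ℕ) : ℕ := 11 * 2 ^ i / 8

/-- Dimensions of the right spaces. -/
def mD (j : ℕ) : ℕ := 2 ^ j

theorem lD_le (i : ℕ) : 8 * lD i ≤ 11 * 2 ^ i := Nat.mul_div_le _ _

theorem lD_eq {i : ℕ} (hi : 3 ≤ i) : 8 * lD i = 11 * 2 ^ i := by
  obtain ⟨j, rfl⟩ : ∃ j, i = j + 3 := ⟨i - 3, by omega⟩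
  unfold lD
  have : 11 * 2 ^ (j + 3) = 8 * (11 * 2 ^ j) := by rw [pow_add]; ring
  rw [this, Nat.mul_div_cancel_left _ (by norm_num)]

theorem sum_six (K : ℕ) : 32 * ∑ k ∈ Finset.Icc 6 K, 2 ^ (K - k) ≤ 2 ^ K := by
  by_cases hK : K < 6
  · rw [Finset.Icc_eq_empty (by omega)]
    simp
  obtain ⟨J, rfl⟩ : ∃ J, K = J + 5 := ⟨K - 5, by omega⟩
  suffices h : 32 * ∑ k ∈ Finset.Icc 6 (J + 5), 2 ^ (J + 5 - k) + 32 = 2 ^ (J + 5) by omega
  clear hK
  induction J with
  | zero => simp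
  | succ J ih =>
    have h1 : ∑ k ∈ Finset.Icc 6 (J + 1 + 5), 2 ^ (J + 1 + 5 - k) =
        2 * ∑ k ∈ Finset.Icc 6 (J + 5), 2 ^ (J + 5 - k) + 1 := by
      rw [show J + 1 + 5 = J + 5 + 1 by omega, Finset.sum_Icc_succ_top (by omega), Finset.mul_sum]
      congr 1
      · refine Finset.sum_congr rfl fun k hk => ?_
        rw [Finset.mem_Icc] at hk
        rw [show J + 5 + 1 - k = (J + 5 - k) + 1 by omega, pow_succ]
        ring
      · simp
    rw [h1, show J + 1 + 5 = (J + 5) + 1 by omega, pow_succ, ← ih]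
    ring

theorem sum_two (K : ℕ) : ∑ k ∈ Finset.Icc 1 K, 2 ^ k + 2 = 2 ^ (K + 1) := by
  induction K with
  | zero => simp
  | succ K ih =>
    rw [Finset.sum_Icc_succ_top (by omega), pow_succ 2 (K + 1)]
    omega

section

variable {R : ℕ → Finset (FreeAlgebra F X)} {n d : ℕ}

theorem sum_rel (hcard : ∀ k, (R k).card ≤ n) (hd : ∀ k < d, R k = ∅) (h6 : 6 ≤ d) (c : ℕ)
    (g : ℕ → ℕ) (hg : ∀ s, 8 * g s ≤ c * 2 ^ s) (K : ℕ) :
    256 * ∑ k ∈ Finset.Icc 1 K, (R k).card * g (K - k) ≤ n * c * 2 ^ K := by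
  have h1 : ∑ k ∈ Finset.Icc 1 K, (R k).card * g (K - k) =
      ∑ k ∈ Finset.Icc 6 K, (R k).card * g (K - k) := by
    symm
    refine Finset.sum_subset (Finset.Icc_subset_Icc (by norm_num) le_rfl) ?_
    intro k hk hk'
    rw [Finset.mem_Icc] at hk hk'
    rw [hd k (by omega)]
    simp
  rw [h1]
  have h2 : 8 * ∑ k ∈ Finset.Icc 6 K, (R k).card * g (K - k) ≤
      n * c * ∑ k ∈ Finset.Icc 6 K, 2 ^ (K - k) := by
    rw [Finset.mul_sum, Finset.mul_sum]
    refine Finset.sum_le_sum fun k _ => ?_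
    calc 8 * ((R k).card * g (K - k)) = (R k).card * (8 * g (K - k)) := by ring
      _ ≤ n * (c * 2 ^ (K - k)) := Nat.mul_le_mul (hcard k) (hg _)
      _ = n * c * 2 ^ (K - k) := by ring
  have h3 := sum_six K
  calc 256 * ∑ k ∈ Finset.Icc 6 K, (R k).card * g (K - k)
      = 32 * (8 * ∑ k ∈ Finset.Icc 6 K, (R k).card * g (K - k)) := by ring
    _ ≤ 32 * (n * c * ∑ k ∈ Finset.Icc 6 K, 2 ^ (K - k)) := Nat.mul_le_mul_left _ h2
    _ = n * c * (32 * ∑ k ∈ Finset.Icc 6 K, 2 ^ (K - k)) := by ring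
    _ ≤ n * c * 2 ^ K := Nat.mul_le_mul_left _ h3

theorem stepM_ineq [Fintype X] (hcard : ∀ k, (R k).card ≤ n) (hd : ∀ k < d, R k = ∅) (h6 : 6 ≤ d)
    (hX : 3 * n + 2 ≤ Fintype.card X) (N : ℕ) :
    mD (N + 1) + (∑ k ∈ Finset.Icc 1 (N + 1), (R k).card * mD (N + 1 - k) +
      ∑ i ∈ Finset.Icc 1 N, (R (i + (N + 1))).card * lD i) ≤ Fintype.card X * mD N := by
  have h1 := sum_rel hcard hd h6 8 mD (fun s => le_rfl) (N + 1)
  have h2 : 8 * ∑ i ∈ Finset.Icc 1 N, (R (i + (N + 1))).card * lD i ≤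
      n * (11 * ∑ i ∈ Finset.Icc 1 N, 2 ^ i) := by
    rw [Finset.mul_sum, Finset.mul_sum, Finset.mul_sum]
    refine Finset.sum_le_sum fun k _ => ?_
    calc 8 * ((R (k + (N + 1))).card * lD k) = (R (k + (N + 1))).card * (8 * lD k) := by ring
      _ ≤ n * (11 * 2 ^ k) := Nat.mul_le_mul (hcard _) (lD_le k)
  have h3 := sum_two N
  have h4 : n * (11 * ∑ i ∈ Finset.Icc 1 N, 2 ^ i) ≤ n * (11 * 2 ^ (N + 1)) :=
    Nat.mul_le_mul_left _ (Nat.mul_le_mul_left _ (by omega))
  have h5 : (3 * n + 2) * 2 ^ N ≤ Fintype.card X * 2 ^ N := Nat.mul_le_mul_right _ hX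
  unfold mD at h1 ⊢
  rw [pow_succ] at h1 h4 ⊢
  have e1 : n * (11 * (2 ^ N * 2)) = 22 * (n * 2 ^ N) := by ring
  have e2 : n * 8 * (2 ^ N * 2) = 16 * (n * 2 ^ N) := by ring
  have e3 : (3 * n + 2) * 2 ^ N = 3 * (n * 2 ^ N) + 2 * 2 ^ N := by ring
  rw [e1] at h4
  rw [e2] at h1
  rw [e3] at h5
  omega

theorem stepL_ineq [Fintype X] (hcard : ∀ k, (R k).card ≤ n) (hd : ∀ k < d, R k = ∅) (h6 : 6 ≤ d)
    (hn : 1 ≤ n) (hX : 3 * n + 2 ≤ Fintype.card X) (N : ℕ) :
    lD (N + 1) + (∑ k ∈ Finset.Icc 1 (N + 1), (R k).card * lD (N + 1 - k) +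
      ∑ j ∈ Finset.Icc 1 (N + 1), (R (N + 1 + j)).card * mD j) ≤ Fintype.card X * lD N := by
  have hz : ∀ k, k < 6 → (R k).card = 0 := fun k hk => by rw [hd k (by omega)]; simp
  by_cases hN : 3 ≤ N
  · have h1 := sum_rel hcard hd h6 11 lD lD_le (N + 1)
    have h2 : ∑ j ∈ Finset.Icc 1 (N + 1), (R (N + 1 + j)).card * mD j ≤
        n * ∑ j ∈ Finset.Icc 1 (N + 1), 2 ^ j := by
      rw [Finset.mul_sum]
      refine Finset.sum_le_sum fun k _ => ?_
      exact Nat.mul_le_mul (hcard _) le_rfl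
    have h3 := sum_two (N + 1)
    have h4 : n * ∑ i ∈ Finset.Icc 1 (N + 1), 2 ^ i ≤ n * 2 ^ (N + 1 + 1) :=
      Nat.mul_le_mul_left _ (by omega)
    have h5 : (3 * n + 2) * (8 * lD N) ≤ Fintype.card X * (8 * lD N) :=
      Nat.mul_le_mul_right _ hX
    have h6' := lD_eq hN
    have h7 := lD_eq (i := N + 1) (by omega)
    rw [h6'] at h5
    rw [pow_succ] at h1 h7
    rw [pow_succ, pow_succ] at h4
    have e1 : n * 11 * (2 ^ N * 2) = 22 * (n * 2 ^ N) := by ring
    have e2 : n * (2 ^ N * 2 * 2) = 4 * (n * 2 ^ N) := by ring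
    have e3 : (3 * n + 2) * (11 * 2 ^ N) = 33 * (n * 2 ^ N) + 22 * 2 ^ N := by ring
    have e4 : Fintype.card X * (11 * 2 ^ N) = 8 * (Fintype.card X * lD N) := by
      rw [← h6']; ring
    rw [e1] at h1
    rw [e2] at h4
    rw [e3, e4] at h5
    omega
  · have hN' : N = 0 ∨ N = 1 ∨ N = 2 := by omega
    rcases hN' with rfl | rfl | rfl
    · simp only [zero_add, Finset.Icc_self, Finset.sum_singleton, hz 1 (by norm_num),
        hz (1 + 1) (by norm_num)]
      have : lD 1 = 2 := by decide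
      have : lD 0 = 1 := by decide
      simp only [*]
      omega
    · have e : Finset.Icc 1 (1 + 1) = {1, 2} := by decide
      rw [e, Finset.sum_pair (by norm_num), Finset.sum_pair (by norm_num), hz 1 (by norm_num),
        hz 2 (by norm_num), hz (1 + 1 + 1) (by norm_num), hz (1 + 1 + 2) (by norm_num)]
      have : lD (1 + 1) = 5 := by decide
      have : lD 1 = 2 := by decide
      simp only [*]
      omega
    · have e : Finset.Icc 1 (2 + 1) = {1, 2, 3} := by decide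
      rw [e, Finset.sum_insert (by decide), Finset.sum_pair (by norm_num),
        Finset.sum_insert (by decide), Finset.sum_pair (by norm_num), hz 1 (by norm_num),
        hz 2 (by norm_num), hz 3 (by norm_num), hz (2 + 1 + 1) (by norm_num),
        hz (2 + 1 + 2) (by norm_num)]
      have h1 : lD (2 + 1) = 11 := by decide
      have h2 : lD 2 = 5 := by decide
      have h3 : mD 3 = 8 := by decide
      have h4 := hcard (2 + 1 + 3)
      rw [h1, h2, h3]
      omega

end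

/-- The functions supported at the empty word. -/
def atNil (F : Type*) [Field F] (X : Type*) : Submodule F (List X → F) where
  carrier := {ψ | ∀ w, w ≠ [] → ψ w = 0}
  add_mem' := fun {a b} ha hb w hw => by rw [Pi.add_apply, ha w hw, hb w hw, add_zero]
  zero_mem' := fun _ _ => rfl
  smul_mem' := fun c a ha w hw => by rw [Pi.smul_apply, ha w hw, smul_zero]

/-- `atNil` is one-dimensional. -/
noncomputable def atNilEquiv (F : Type*) [Field F] (X : Type*) : atNil F X ≃ₗ[F] F where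
  toFun ψ := ψ.1 []
  map_add' _ _ := rfl
  map_smul' _ _ := rfl
  invFun c := ⟨fun w => match w with
    | [] => c
    | _ :: _ => 0, fun w hw => by cases w with
      | nil => exact absurd rfl hw
      | cons x w => rfl⟩
  left_inv ψ := by
    ext w
    cases w with
    | nil => rfl
    | cons x w => exact (ψ.2 _ (List.cons_ne_nil _ _)).symm
  right_inv c := rfl

theorem exists_good [Fintype X] {R : ℕ → Finset (FreeAlgebra F X)} {n d : ℕ}
    (hR : ∀ k, ∀ f ∈ R k, f ∈ Homog F X k) (hcard : ∀ k, (R k).card ≤ n)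
    (hd : ∀ k < d, R k = ∅) (h6 : 6 ≤ d) (hn : 1 ≤ n) (hX : 3 * n + 2 ≤ Fintype.card X) (N : ℕ) :
    ∃ L M : ℕ → Submodule F (List X → F), Good R lD mD N N L M := by
  have hR0 : R 0 = ∅ := hd 0 (by omega)
  induction N with
  | zero =>
    have hfin : FiniteDimensional F (atNil F X) := Module.Finite.equiv (atNilEquiv F X).symm
    have hrank : finrank F (atNil F X) = 1 := by
      rw [(atNilEquiv F X).finrank_eq, finrank_self]
    have hsupp : ∀ ψ ∈ atNil F X, ∀ w : List X, w.length ≠ 0 → ψ w = 0 := fun ψ hψ w hw =>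
      hψ w (fun h => hw (by rw [h]; rfl))
    have hk : ∀ k, ∀ f ∈ R k, 0 < k := by
      intro k f hf
      by_contra h0
      rw [show k = 0 by omega, hR0] at hf
      exact absurd hf (Finset.notMem_empty _)
    refine ⟨fun _ => atNil F X, fun _ => atNil F X, fun _ _ => hfin, fun _ _ => hfin, ?_, ?_,
      ?_, ?_, ?_, ?_, ?_, ?_, ?_⟩
    · intro i hi
      obtain rfl : i = 0 := by omega
      rw [hrank]; decide
    · intro i hi
      obtain rfl : i = 0 := by omega
      rw [hrank]; decide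
    · intro i hi
      obtain rfl : i = 0 := by omega
      exact hsupp
    · intro i hi
      obtain rfl : i = 0 := by omega
      exact hsupp
    · intro i hi; omega
    · intro i hi; omega
    · intro i _ ψ hψ k f hf w
      exact ev_mul_eq_zero (hR k f hf) (hk k f hf) (hsupp ψ hψ) w
    · intro i _ ψ hψ k f hf w
      exact ev_mul_eq_zero' (hR k f hf) (hk k f hf) (hsupp ψ hψ) w
    · intro i hi j hj hi1; omega
  | succ N ih =>
    obtain ⟨L, M, h⟩ := ih
    obtain ⟨B, hB⟩ := h.stepM hR hR0 (stepM_ineq hcard hd h6 hX N)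
    obtain ⟨C, hC⟩ := hB.stepL hR hR0 (stepL_ineq hcard hd h6 hn hX N)
    exact ⟨_, _, hC⟩

end Vale.Agent.P192.H584
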