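import Vale.Agent.P192.R2.H584.Defs

/-!
# P192: words, the free algebra and functions on words
-/

namespace Vale.Agent.P192.H584

variable {F : Type*} [Field F] {X : Type*}

@[simp] theorem word_nil : word F ([] : List X) = 1 := by simp [word]

@[simp] theorem word_cons (x : X) (w : List X) :
    word F (x :: w) = FreeAlgebra.ι F x * word F w := by simp [word]

theorem word_append (u v : List X) : word F (u ++ v) = word F u * word F v := by
  simp [word]

theorem word_singleton (x : X) : word F [x] = FreeAlgebra.ι F x := by simp [word]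

theorem span_word : Submodule.span F (Set.range (word F : List X → FreeAlgebra F X)) = ⊤ := by
  rw [eq_top_iff]
  rintro a -
  induction a using FreeAlgebra.induction with
  | grade0 r =>
    rw [Algebra.algebraMap_eq_smul_one]
    exact Submodule.smul_mem _ _ (Submodule.subset_span ⟨[], word_nil⟩)
  | grade1 x => exact Submodule.subset_span ⟨[x], word_singleton x⟩
  | mul a b ha hb =>
    have h := Submodule.mul_mem_mul ha hb
    rw [Submodule.span_mul_span] at h
    refine Submodule.span_mono ?_ h
    rintro _ ⟨_, ⟨u, rfl⟩, _, ⟨v, rfl⟩, rfl⟩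
    exact ⟨u ++ v, word_append u v⟩
  | add a b ha hb => exact Submodule.add_mem _ ha hb

theorem lin_ext {M : Type*} [AddCommMonoid M] [Module F M] {g h : FreeAlgebra F X →ₗ[F] M}
    (H : ∀ w, g (word F w) = h (word F w)) : g = h := by
  refine LinearMap.ext_on_range span_word ?_
  intro w
  exact H w

section Phi

variable (S : Type*) [CommRing S] [Algebra F S]

/-- The operator `ψ ↦ (w ↦ ψ (w x))`. -/
def rsh (x : X) : Module.End S (List X → S) where
  toFun ψ := fun w => ψ (w ++ [x])
  map_add' _ _ := rfl
  map_smul' _ _ := rfl

/-- The action of the free algebra on functions on words: `(a ψ)(w) = ψ(w a)`. -/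
noncomputable def Phi : FreeAlgebra F X →ₐ[F] Module.End S (List X → S) :=
  FreeAlgebra.lift F (rsh S)

theorem Phi_word (v : List X) (ψ : List X → S) (w : List X) :
    Phi S (word F v) ψ w = ψ (w ++ v) := by
  induction v generalizing w with
  | nil => simp
  | cons x v ih =>
    rw [word_cons, map_mul, Module.End.mul_apply]
    have : Phi S (FreeAlgebra.ι F x) = rsh S x := by simp [Phi]
    rw [this]
    change Phi S (word F v) ψ (w ++ [x]) = _
    rw [ih]
    simp

/-- The linear extension of a function on words to the free algebra. -/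
noncomputable def ev (φ : List X → S) : FreeAlgebra F X →ₗ[F] S where
  toFun a := Phi S a φ []
  map_add' a b := by simp
  map_smul' c a := by simp

@[simp] theorem ev_word (φ : List X → S) (v : List X) : ev S φ (word F v) = φ v := by
  change Phi S (word F v) φ [] = _
  rw [Phi_word]
  rfl

theorem ev_add (φ ψ : List X → S) (a : FreeAlgebra F X) :
    ev S (φ + ψ) a = ev S φ a + ev S ψ a := by
  change Phi S a (φ + ψ) [] = Phi S a φ [] + Phi S a ψ []
  rw [map_add]
  rfl

theorem ev_smul (c : S) (φ : List X → S) (a : FreeAlgebra F X) :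
    ev S (c • φ) a = c * ev S φ a := by
  change Phi S a (c • φ) [] = c * Phi S a φ []
  rw [map_smul]
  rfl

theorem ev_shift (φ : List X → S) (u v : List X) (a : FreeAlgebra F X) :
    ev S φ (word F u * a * word F v) = ev S (fun w => φ (u ++ w ++ v)) a := by
  have : (ev S φ) ∘ₗ (LinearMap.mulLeftRight F (word F u, word F v)) =
      ev S (fun w => φ (u ++ w ++ v)) := by
    refine lin_ext fun w => ?_
    rw [LinearMap.comp_apply, LinearMap.mulLeftRight_apply, ← word_append, ← word_append,
      ev_word, ev_word]
  rw [← this, LinearMap.comp_apply, LinearMap.mulLeftRight_apply]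

theorem Phi_apply (a : FreeAlgebra F X) (φ : List X → S) (w : List X) :
    Phi S a φ w = ev S φ (word F w * a) := by
  let g : FreeAlgebra F X →ₗ[F] S :=
    { toFun := fun a => Phi S a φ w
      map_add' := fun a b => by simp
      map_smul' := fun c a => by simp }
  have : g = (ev S φ) ∘ₗ (LinearMap.mulLeft F (word F w)) := by
    refine lin_ext fun v => ?_
    rw [LinearMap.comp_apply, LinearMap.mulLeft_apply, ← word_append, ev_word]
    exact Phi_word S v φ w
  exact LinearMap.congr_fun this a

theorem ev_congr {φ ψ : List X → S} {k : ℕ} {a : FreeAlgebra F X} (ha : a ∈ Homog F X k)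
    (h : ∀ w, w.length = k → φ w = ψ w) : ev S φ a = ev S ψ a := by
  induction ha using Submodule.span_induction with
  | mem a h1 =>
    obtain ⟨w, hw, rfl⟩ := h1
    rw [ev_word, ev_word, h w hw]
  | zero => rw [map_zero, map_zero]
  | add a b _ _ ha hb => rw [map_add, map_add, ha, hb]
  | smul c a _ ha => rw [map_smul, map_smul, ha]

theorem ev_eq_zero {φ : List X → S} {k : ℕ} {a : FreeAlgebra F X} (ha : a ∈ Homog F X k)
    (h : ∀ w, w.length = k → φ w = 0) : ev S φ a = 0 := by
  have := ev_congr S ha (ψ := 0) (fun w hw => h w hw)
  rw [this]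
  have := ev_smul S (0 : S) (0 : List X → S) a
  rwa [zero_smul, zero_mul] at this

end Phi

end Vale.Agent.P192.H584
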