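import Vale.Agent.P192.R2.H584.Grp

/-!
# P192: Golod's construction
-/

namespace Vale.Agent.P192.H584

open Polynomial

variable {F : Type*} [Field F] {X : Type*}

theorem aug_word (w : List X) : aug F X (word F w) = if w.length = 0 then 1 else 0 := by
  cases w with
  | nil => simp
  | cons x w => simp [aug]

/-- The homomorphism recording the homogeneous components. -/
noncomputable def grd : FreeAlgebra F X →ₐ[F] (FreeAlgebra F X)[X] :=
  FreeAlgebra.lift F fun x => monomial 1 (FreeAlgebra.ι F x)

theorem grd_word (w : List X) : grd (word F w) = monomial w.length (word F w) := by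
  induction w with
  | nil => rw [word_nil, map_one]; rfl
  | cons x w ih =>
    rw [word_cons, map_mul, ih, List.length_cons, grd, FreeAlgebra.lift_ι_apply,
      monomial_mul_monomial, add_comm]

/-- The homogeneous component of degree `k`. -/
noncomputable def cmp (k : ℕ) : FreeAlgebra F X →ₗ[F] FreeAlgebra F X where
  toFun a := (grd a).coeff k
  map_add' a b := by rw [map_add, coeff_add]
  map_smul' c a := by rw [map_smul, coeff_smul, RingHom.id_apply]

theorem cmp_word (k : ℕ) (w : List X) : cmp k (word F w) = if w.length = k then word F w else 0 := by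
  change (grd (word F w)).coeff k = _
  rw [grd_word, coeff_monomial]

theorem cmp_mem (k : ℕ) (a : FreeAlgebra F X) : cmp k a ∈ Homog F X k := by
  have h : (⊤ : Submodule F (FreeAlgebra F X)) ≤ (Homog F X k).comap (cmp k) := by
    rw [← span_word, Submodule.span_le]
    rintro _ ⟨w, rfl⟩
    change cmp k (word F w) ∈ Homog F X k
    rw [cmp_word]
    split_ifs with h
    · exact Submodule.subset_span ⟨w, h, rfl⟩
    · exact Submodule.zero_mem _
  exact h (Submodule.mem_top (x := a))

theorem eval_grd (a : FreeAlgebra F X) : (grd a).eval 1 = a := by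
  let E : FreeAlgebra F X →ₗ[F] FreeAlgebra F X :=
    { toFun := fun a => (grd a).eval 1
      map_add' := fun a b => by rw [map_add, eval_add]
      map_smul' := fun c a => by rw [map_smul, eval_smul, RingHom.id_apply] }
  have h : E = LinearMap.id := lin_ext fun w => by
    change (grd (word F w)).eval 1 = word F w
    rw [grd_word, eval_monomial, one_pow, mul_one]
  exact congrArg (fun f : FreeAlgebra F X →ₗ[F] FreeAlgebra F X => f a) h

theorem sum_cmp (a : FreeAlgebra F X) {D : ℕ} (hD : (grd a).natDegree ≤ D) :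
    ∑ k ∈ Finset.range (D + 1), cmp k a = a := by
  conv_rhs => rw [← eval_grd a, eval_eq_sum_range' (Nat.lt_succ_of_le hD)]
  refine Finset.sum_congr rfl fun k _ => ?_
  rw [one_pow, mul_one]
  rfl

theorem cmp_zero (a : FreeAlgebra F X) : cmp 0 a = algebraMap F _ (aug F X a) := by
  have h : cmp 0 = (Algebra.linearMap F (FreeAlgebra F X)).comp (aug F X).toLinearMap :=
    lin_ext fun w => by
      rw [cmp_word]
      change _ = algebraMap F _ (aug F X (word F w))
      rw [aug_word]
      cases w with
      | nil => simp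
      | cons x w => simp
  exact congrArg (fun f : FreeAlgebra F X →ₗ[F] FreeAlgebra F X => f a) h

theorem cmp_pow_low {a : FreeAlgebra F X} (ha : aug F X a = 0) {N k : ℕ} (hk : k < N) :
    cmp k (a ^ N) = 0 := by
  have h0 : (grd a).coeff 0 = 0 := by
    have := cmp_zero a
    rw [ha, map_zero] at this
    exact this
  have h1 : grd a = divX (grd a) * Polynomial.X := by
    conv_lhs => rw [← divX_mul_X_add (grd a)]
    rw [h0, map_zero, add_zero]
  change (grd (a ^ N)).coeff k = 0
  rw [map_pow, h1, (commute_X (divX (grd a))).symm.mul_pow, coeff_mul_X_pow', if_neg (by omega)]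

theorem natDegree_grd_pow (a : FreeAlgebra F X) (N : ℕ) :
    (grd (a ^ N)).natDegree ≤ N * (grd a).natDegree := by
  rw [map_pow]
  exact natDegree_pow_le

/-- The exponents of the construction. -/
def expo (p : ℕ) (D : ℕ → ℕ) : ℕ → ℕ
  | 0 => 6
  | j + 1 => p ^ expo p D j * D j + expo p D j + 1

theorem le_expo (p : ℕ) (D : ℕ → ℕ) (j : ℕ) : 6 ≤ expo p D j := by
  induction j with
  | zero => exact le_rfl
  | succ j ih => rw [expo]; omega

theorem pow_expo_lt {p : ℕ} (hp : 1 < p) (D : ℕ → ℕ) {i j : ℕ} (hij : i < j) :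
    p ^ expo p D i * D i < p ^ expo p D j := by
  induction j, hij using Nat.le_induction with
  | base =>
    refine lt_trans ?_ (Nat.lt_pow_self hp)
    rw [expo]
    omega
  | succ j _ ih =>
    refine ih.trans (Nat.pow_lt_pow_right hp ?_)
    rw [expo]
    omega

open Classical in
/-- The relators of Golod's construction: the homogeneous components of the powers. -/
noncomputable def golodR (e : ℕ → FreeAlgebra F X) (N : ℕ → ℕ) (k : ℕ) :
    Finset (FreeAlgebra F X) :=
  if h : ∃ j, N j ≤ k ∧ k ≤ N j * (grd (e j)).natDegree then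
    {cmp k (e h.choose ^ N h.choose)} else ∅

theorem golodR_homog (e : ℕ → FreeAlgebra F X) (N : ℕ → ℕ) (k : ℕ) :
    ∀ f ∈ golodR e N k, f ∈ Homog F X k := by
  intro f hf
  unfold golodR at hf
  split_ifs at hf with h
  · rw [Finset.mem_singleton] at hf
    rw [hf]
    exact cmp_mem _ _
  · simp at hf

theorem golodR_card (e : ℕ → FreeAlgebra F X) (N : ℕ → ℕ) (k : ℕ) :
    (golodR e N k).card ≤ 1 := by
  unfold golodR
  split_ifs with h <;> simp

theorem golodR_low (e : ℕ → FreeAlgebra F X) (N : ℕ → ℕ) (hN : ∀ j, 6 ≤ N j) {k : ℕ}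
    (hk : k < 6) : golodR e N k = ∅ := by
  unfold golodR
  rw [dif_neg]
  rintro ⟨j, hj, -⟩
  have := hN j
  omega

theorem golodR_mem (e : ℕ → FreeAlgebra F X) (N : ℕ → ℕ)
    (hN : ∀ i j, i < j → N i * (grd (e i)).natDegree < N j) {j k : ℕ} (h1 : N j ≤ k)
    (h2 : k ≤ N j * (grd (e j)).natDegree) : cmp k (e j ^ N j) ∈ golodR e N k := by
  unfold golodR
  have h : ∃ j, N j ≤ k ∧ k ≤ N j * (grd (e j)).natDegree := ⟨j, h1, h2⟩
  rw [dif_pos h]
  have h3 : h.choose = j := by
    have h4 := h.choose_spec
    rcases lt_trichotomy h.choose j with h5 | h5 | h5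
    · have := hN _ _ h5
      omega
    · exact h5
    · have := hN _ _ h5
      omega
  rw [h3]
  exact Finset.mem_singleton_self _

theorem golodR_kill (e : ℕ → FreeAlgebra F X) (he : ∀ j, aug F X (e j) = 0) (N : ℕ → ℕ)
    (hN : ∀ i j, i < j → N i * (grd (e i)).natDegree < N j) (j : ℕ) :
    quo (golodR e N) (e j ^ N j) = 0 := by
  rw [← sum_cmp (e j ^ N j) (natDegree_grd_pow (e j) (N j)), map_sum]
  refine Finset.sum_eq_zero fun k hk => ?_
  rw [Finset.mem_range] at hk
  by_cases h : k < N j
  · rw [cmp_pow_low (he j) h, map_zero]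
  · exact quo_rel (golodR_mem e N hN (not_lt.mp h) (by omega))

theorem countable_freeAlgebra [Countable F] [Countable X] : Countable (FreeAlgebra F X) := by
  have hsurj : Function.Surjective
      (fun l : List (F × List X) => (l.map fun cw => cw.1 • word F cw.2).sum) := by
    intro a
    have ha : a ∈ Submodule.span F (Set.range (word F : List X → FreeAlgebra F X)) := by
      rw [span_word]; trivial
    induction ha using Submodule.span_induction with
    | mem a h =>
      obtain ⟨w, rfl⟩ := h
      exact ⟨[(1, w)], by simp⟩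
    | zero => exact ⟨[], rfl⟩
    | add a b _ _ ha hb =>
      obtain ⟨l, rfl⟩ := ha
      obtain ⟨l', rfl⟩ := hb
      exact ⟨l ++ l', by simp⟩
    | smul c a _ ha =>
      obtain ⟨l, rfl⟩ := ha
      refine ⟨l.map fun cw => (c * cw.1, cw.2), ?_⟩
      simp only [List.map_map, List.smul_sum]
      congr 1
      refine List.map_congr_left fun cw _ => ?_
      simp [mul_smul]
  exact hsurj.countable

/-- **Golod's construction**, with one relator in each degree. -/
theorem exists_golod [Countable F] [Countable X] {p : ℕ} (hp : 1 < p) :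
    ∃ R : ℕ → Finset (FreeAlgebra F X), (∀ k, ∀ f ∈ R k, f ∈ Homog F X k) ∧
      (∀ k, (R k).card ≤ 1) ∧ (∀ k < 6, R k = ∅) ∧
      ∀ a, aug F X a = 0 → ∃ m, quo R a ^ p ^ m = 0 := by
  have := countable_freeAlgebra (F := F) (X := X)
  obtain ⟨f, hf⟩ := exists_surjective_nat (FreeAlgebra F X)
  let e : ℕ → FreeAlgebra F X := fun j => f j - algebraMap F _ (aug F X (f j))
  have he : ∀ j, aug F X (e j) = 0 := fun j => by
    change aug F X (f j - algebraMap F _ (aug F X (f j))) = 0
    rw [map_sub, AlgHom.commutes]
    exact sub_self _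
  let D : ℕ → ℕ := fun j => (grd (e j)).natDegree
  let N : ℕ → ℕ := fun j => p ^ expo p D j
  have hN : ∀ i j, i < j → N i * (grd (e i)).natDegree < N j := fun i j hij =>
    pow_expo_lt hp D hij
  refine ⟨golodR e N, golodR_homog e N, golodR_card e N, fun k hk => golodR_low e N ?_ hk,
    fun a ha => ?_⟩
  · intro j
    have h1 := Nat.lt_pow_self hp (n := expo p D j)
    have h2 := le_expo p D j
    change 6 ≤ p ^ expo p D j
    omega
  · obtain ⟨j, rfl⟩ := hf a
    have h1 : e j = f j := by
      change f j - algebraMap F _ (aug F X (f j)) = f j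
      rw [ha, map_zero, sub_zero]
    refine ⟨expo p D j, ?_⟩
    have h2 := golodR_kill e he N hN j
    rw [map_pow, h1] at h2
    exact h2

end Vale.Agent.P192.H584
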