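import Vale.Agent.P192.R2.H584.Dim

/-!
# P192: spaces of functions on words around a cut
-/

namespace Vale.Agent.P192.H584

open Module

variable {F : Type*} [Field F] {X : Type*}

/-- The product function on words cut after `i` letters. -/
def tens (i : ℕ) (ψ ρ : List X → F) : List X → F := fun w => ψ (w.take i) * ρ (w.drop i)

/-- Left spaces `L i` (`i ≤ a`) and right spaces `M j` (`j ≤ b`) at a cut. -/
structure Good (R : ℕ → Finset (FreeAlgebra F X)) (l m : ℕ → ℕ) (a b : ℕ)
    (L M : ℕ → Submodule F (List X → F)) : Prop where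
  finL : ∀ i ≤ a, FiniteDimensional F (L i)
  finM : ∀ i ≤ b, FiniteDimensional F (M i)
  rankL : ∀ i ≤ a, finrank F (L i) = l i
  rankM : ∀ i ≤ b, finrank F (M i) = m i
  suppL : ∀ i ≤ a, ∀ ψ ∈ L i, ∀ w, w.length ≠ i → ψ w = 0
  suppM : ∀ i ≤ b, ∀ ψ ∈ M i, ∀ w, w.length ≠ i → ψ w = 0
  consL : ∀ i < a, ∀ ψ ∈ L (i + 1), ∀ x, (fun w => ψ (x :: w)) ∈ L i
  consM : ∀ i < b, ∀ ψ ∈ M (i + 1), ∀ x, (fun w => ψ (w ++ [x])) ∈ M i
  relL : ∀ i ≤ a, ∀ ψ ∈ L i, ∀ k, ∀ f ∈ R k, ∀ w, ev F ψ (f * word F w) = 0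
  relM : ∀ i ≤ b, ∀ ψ ∈ M i, ∀ k, ∀ f ∈ R k, ∀ w, ev F ψ (word F w * f) = 0
  cross : ∀ i ≤ a, ∀ j ≤ b, 1 ≤ i → 1 ≤ j → ∀ f ∈ R (i + j), ∀ ψ ∈ L i, ∀ ρ ∈ M j,
    ev F (tens i ψ ρ) f = 0

variable {R : ℕ → Finset (FreeAlgebra F X)} {l m : ℕ → ℕ} {a b : ℕ}
  {L M : ℕ → Submodule F (List X → F)}

theorem Good.contrL (h : Good R l m a b L M) {i : ℕ} (hi : i ≤ a) {ψ : List X → F} (hψ : ψ ∈ L i)
    (u : List X) (hu : u.length ≤ i) : (fun w => ψ (u ++ w)) ∈ L (i - u.length) := by
  induction u generalizing i ψ with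
  | nil => simpa using hψ
  | cons x u ih =>
    obtain ⟨i, rfl⟩ : ∃ j, i = j + 1 := ⟨i - 1, by simp at hu; omega⟩
    have h1 := ih (i := i) (by omega) (h.consL i (by omega) ψ hψ x) (by simpa using hu)
    simpa using h1

theorem Good.contrM (h : Good R l m a b L M) {i : ℕ} (hi : i ≤ b) {ψ : List X → F} (hψ : ψ ∈ M i)
    (u : List X) (hu : u.length ≤ i) : (fun w => ψ (w ++ u)) ∈ M (i - u.length) := by
  induction u using List.reverseRecOn generalizing i ψ with
  | nil => simpa using hψ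
  | append_singleton u x ih =>
    obtain ⟨i, rfl⟩ : ∃ j, i = j + 1 := ⟨i - 1, by simp at hu; omega⟩
    have h1 := ih (i := i) (by omega) (h.consM i (by omega) ψ hψ x) (by simpa using hu)
    simpa using h1

/-- The functions killed by all `f w`. -/
def killL (f : FreeAlgebra F X) : Submodule F (List X → F) where
  carrier := {ψ | ∀ w, ev F ψ (f * word F w) = 0}
  add_mem' := fun {a b} ha hb w => by rw [ev_add, ha w, hb w, add_zero]
  zero_mem' := fun w => by
    have := ev_smul F (0 : F) (0 : List X → F) (f * word F w)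
    rwa [zero_smul, zero_mul] at this
  smul_mem' := fun c a ha w => by rw [ev_smul, ha w, mul_zero]

/-- The functions killed by all `w f`. -/
def killM (f : FreeAlgebra F X) : Submodule F (List X → F) where
  carrier := {ψ | ∀ w, ev F ψ (word F w * f) = 0}
  add_mem' := fun {a b} ha hb w => by rw [ev_add, ha w, hb w, add_zero]
  zero_mem' := fun w => by
    have := ev_smul F (0 : F) (0 : List X → F) (word F w * f)
    rwa [zero_smul, zero_mul] at this
  smul_mem' := fun c a ha w => by rw [ev_smul, ha w, mul_zero]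

theorem tens_add_left (i : ℕ) (ψ ψ' ρ : List X → F) :
    tens i (ψ + ψ') ρ = tens i ψ ρ + tens i ψ' ρ := by
  funext w; simp [tens, add_mul]

theorem tens_add_right (i : ℕ) (ψ ρ ρ' : List X → F) :
    tens i ψ (ρ + ρ') = tens i ψ ρ + tens i ψ ρ' := by
  funext w; simp [tens, mul_add]

theorem tens_smul_left (i : ℕ) (c : F) (ψ ρ : List X → F) :
    tens i (c • ψ) ρ = c • tens i ψ ρ := by
  funext w; simp [tens, mul_assoc]

theorem tens_smul_right (i : ℕ) (c : F) (ψ ρ : List X → F) :
    tens i ψ (c • ρ) = c • tens i ψ ρ := by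
  funext w; simp [tens, mul_left_comm]

/-- The pairing of `ψ` and `ρ` through `f`, cut after `i` letters. -/
noncomputable def pair (i : ℕ) (f : FreeAlgebra F X) :
    (List X → F) →ₗ[F] (List X → F) →ₗ[F] F :=
  LinearMap.mk₂ F (fun ψ ρ => ev F (tens i ψ ρ) f)
    (fun ψ ψ' ρ => by rw [tens_add_left, ev_add])
    (fun c ψ ρ => by rw [tens_smul_left, ev_smul]; rfl)
    (fun ψ ρ ρ' => by rw [tens_add_right, ev_add])
    (fun c ψ ρ => by rw [tens_smul_right, ev_smul]; rfl)

/-- The functions `ψ` with `pair i f ψ ρ = 0` for all `ρ ∈ N`. -/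
def annL (i : ℕ) (f : FreeAlgebra F X) (N : Submodule F (List X → F)) :
    Submodule F (List X → F) where
  carrier := {ψ | ∀ ρ ∈ N, pair i f ψ ρ = 0}
  add_mem' := fun {a b} ha hb ρ hρ => by
    rw [map_add, LinearMap.add_apply, ha ρ hρ, hb ρ hρ, add_zero]
  zero_mem' := fun ρ _ => by rw [map_zero, LinearMap.zero_apply]
  smul_mem' := fun c a ha ρ hρ => by
    rw [map_smul, LinearMap.smul_apply, ha ρ hρ, smul_zero]

/-- The functions `ρ` with `pair i f ψ ρ = 0` for all `ψ ∈ N`. -/
def annM (i : ℕ) (f : FreeAlgebra F X) (N : Submodule F (List X → F)) :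
    Submodule F (List X → F) where
  carrier := {ρ | ∀ ψ ∈ N, pair i f ψ ρ = 0}
  add_mem' := fun {a b} ha hb ρ hρ => by
    rw [map_add, ha ρ hρ, hb ρ hρ, add_zero]
  zero_mem' := fun ρ _ => by rw [map_zero]
  smul_mem' := fun c a ha ρ hρ => by
    rw [map_smul, ha ρ hρ, smul_zero]

theorem cost_annL (i : ℕ) (f : FreeAlgebra F X) (N E : Submodule F (List X → F))
    [FiniteDimensional F N] [FiniteDimensional F E] : Cost E (annL i f N) (finrank F N) := by
  let g : E →ₗ[F] Dual F N :=
    { toFun := fun ψ => (pair i f ψ.1) ∘ₗ N.subtype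
      map_add' := fun ψ ψ' => by ext ρ; simp
      map_smul' := fun c ψ => by ext ρ; simp }
  refine cost_of_map (K := annL i f N) g (fun ψ hψ => ?_) (Subspace.dual_finrank_eq).le
  intro ρ hρ
  exact LinearMap.congr_fun hψ ⟨ρ, hρ⟩

theorem cost_annM (i : ℕ) (f : FreeAlgebra F X) (N E : Submodule F (List X → F))
    [FiniteDimensional F N] [FiniteDimensional F E] : Cost E (annM i f N) (finrank F N) := by
  let g : E →ₗ[F] Dual F N :=
    { toFun := fun ρ => ((pair i f).flip ρ.1) ∘ₗ N.subtype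
      map_add' := fun ψ ψ' => by ext ρ; simp
      map_smul' := fun c ψ => by ext ρ; simp }
  refine cost_of_map (K := annM i f N) g (fun ρ hρ => ?_) (Subspace.dual_finrank_eq).le
  intro ψ hψ
  exact LinearMap.congr_fun hρ ⟨ψ, hψ⟩

/-- The linear map `ψ ↦ (w ↦ ψ (f w))`. -/
noncomputable def contrMapL (f : FreeAlgebra F X) : (List X → F) →ₗ[F] (List X → F) where
  toFun ψ := fun w => ev F ψ (f * word F w)
  map_add' ψ ψ' := by funext w; exact ev_add F _ _ _
  map_smul' c ψ := by funext w; exact ev_smul F _ _ _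

/-- The linear map `ψ ↦ (w ↦ ψ (w f))`. -/
noncomputable def contrMapM (f : FreeAlgebra F X) : (List X → F) →ₗ[F] (List X → F) where
  toFun ψ := fun w => ev F ψ (word F w * f)
  map_add' ψ ψ' := by funext w; exact ev_add F _ _ _
  map_smul' c ψ := by funext w; exact ev_smul F _ _ _

theorem contrMapL_mem {f : FreeAlgebra F X} {k : ℕ} (hf : f ∈ Homog F X k)
    {N : Submodule F (List X → F)} {ψ : List X → F}
    (h : ∀ u : List X, u.length = k → (fun w => ψ (u ++ w)) ∈ N) : contrMapL f ψ ∈ N := by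
  induction hf using Submodule.span_induction with
  | mem a h1 =>
    obtain ⟨u, hu, rfl⟩ := h1
    have : contrMapL (word F u) ψ = fun w => ψ (u ++ w) := by
      funext w
      change ev F ψ (word F u * word F w) = _
      rw [← word_append, ev_word]
    rw [this]
    exact h u hu
  | zero =>
    have : contrMapL (0 : FreeAlgebra F X) ψ = 0 := by
      funext w
      change ev F ψ (0 * word F w) = 0
      rw [zero_mul, map_zero]
    rw [this]
    exact N.zero_mem
  | add a b _ _ ha hb =>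
    have : contrMapL (a + b) ψ = contrMapL a ψ + contrMapL b ψ := by
      funext w
      change ev F ψ ((a + b) * word F w) = ev F ψ (a * word F w) + ev F ψ (b * word F w)
      rw [add_mul, map_add]
    rw [this]
    exact N.add_mem ha hb
  | smul c a _ ha =>
    have : contrMapL (c • a) ψ = c • contrMapL a ψ := by
      funext w
      change ev F ψ ((c • a) * word F w) = c • ev F ψ (a * word F w)
      rw [smul_mul_assoc, map_smul]
    rw [this]
    exact N.smul_mem c ha

theorem contrMapM_mem {f : FreeAlgebra F X} {k : ℕ} (hf : f ∈ Homog F X k)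
    {N : Submodule F (List X → F)} {ψ : List X → F}
    (h : ∀ u : List X, u.length = k → (fun w => ψ (w ++ u)) ∈ N) : contrMapM f ψ ∈ N := by
  induction hf using Submodule.span_induction with
  | mem a h1 =>
    obtain ⟨u, hu, rfl⟩ := h1
    have : contrMapM (word F u) ψ = fun w => ψ (w ++ u) := by
      funext w
      change ev F ψ (word F w * word F u) = _
      rw [← word_append, ev_word]
    rw [this]
    exact h u hu
  | zero =>
    have : contrMapM (0 : FreeAlgebra F X) ψ = 0 := by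
      funext w
      change ev F ψ (word F w * 0) = 0
      rw [mul_zero, map_zero]
    rw [this]
    exact N.zero_mem
  | add a b _ _ ha hb =>
    have : contrMapM (a + b) ψ = contrMapM a ψ + contrMapM b ψ := by
      funext w
      change ev F ψ (word F w * (a + b)) = ev F ψ (word F w * a) + ev F ψ (word F w * b)
      rw [mul_add, map_add]
    rw [this]
    exact N.add_mem ha hb
  | smul c a _ ha =>
    have : contrMapM (c • a) ψ = c • contrMapM a ψ := by
      funext w
      change ev F ψ (word F w * (c • a)) = c • ev F ψ (word F w * a)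
      rw [mul_smul_comm, map_smul]
    rw [this]
    exact N.smul_mem c ha

theorem Good.costL (h : Good R l m a b L M) {k : ℕ} (hk : 1 ≤ k) (hk' : k ≤ a + 1)
    {f : FreeAlgebra F X} (hf : f ∈ Homog F X k) [FiniteDimensional F (consExt (L a))] :
    Cost (consExt (L a)) (killL f) (l (a + 1 - k)) := by
  have := h.finL (a + 1 - k) (by omega)
  let g : consExt (L a) →ₗ[F] L (a + 1 - k) :=
    LinearMap.codRestrict _ ((contrMapL f) ∘ₗ (consExt (L a)).subtype) (by
      rintro ⟨ψ, hψ⟩
      refine contrMapL_mem hf ?_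
      intro u hu
      obtain ⟨x, u, rfl⟩ : ∃ x v, u = x :: v := by
        cases u with
        | nil => simp at hu; omega
        | cons x v => exact ⟨x, v, rfl⟩
      have h1 := h.contrL le_rfl (hψ.2 x) u (by simp at hu; omega)
      have h2 : a - u.length = a + 1 - k := by simp at hu; omega
      rw [h2] at h1
      exact h1)
  refine cost_of_map (K := killL f) g (fun ψ hψ => ?_) (h.rankL _ (by omega)).le
  intro w
  exact congrFun (congrArg Subtype.val hψ) w

theorem Good.costM (h : Good R l m a b L M) {k : ℕ} (hk : 1 ≤ k) (hk' : k ≤ b + 1)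
    {f : FreeAlgebra F X} (hf : f ∈ Homog F X k) [FiniteDimensional F (snocExt (M b))] :
    Cost (snocExt (M b)) (killM f) (m (b + 1 - k)) := by
  have := h.finM (b + 1 - k) (by omega)
  let g : snocExt (M b) →ₗ[F] M (b + 1 - k) :=
    LinearMap.codRestrict _ ((contrMapM f) ∘ₗ (snocExt (M b)).subtype) (by
      rintro ⟨ψ, hψ⟩
      refine contrMapM_mem hf ?_
      intro u hu
      obtain ⟨u, x, rfl⟩ : ∃ v x, u = v ++ [x] := by
        rcases List.eq_nil_or_concat u with h0 | ⟨v, x, h0⟩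
        · subst h0
          simp at hu; omega
        · exact ⟨v, x, by rw [h0, List.concat_eq_append]⟩
      have h1 := h.contrM le_rfl (hψ.2 x) u (by simp at hu; omega)
      have h2 : b - u.length = b + 1 - k := by simp at hu; omega
      rw [h2] at h1
      simpa using h1)
  refine cost_of_map (K := killM f) g (fun ψ hψ => ?_) (h.rankM _ (by omega)).le
  intro w
  exact congrFun (congrArg Subtype.val hψ) w

theorem ev_mul_eq_zero {f : FreeAlgebra F X} {k n : ℕ} (hf : f ∈ Homog F X k) (hk : n < k)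
    {ψ : List X → F} (hψ : ∀ w, w.length ≠ n → ψ w = 0) (w : List X) :
    ev F ψ (f * word F w) = 0 := by
  have h1 := ev_shift F ψ [] w f
  rw [word_nil, one_mul] at h1
  rw [h1]
  refine ev_eq_zero F hf fun v hv => hψ _ ?_
  simp only [List.nil_append, List.length_append]
  omega

theorem ev_mul_eq_zero' {f : FreeAlgebra F X} {k n : ℕ} (hf : f ∈ Homog F X k) (hk : n < k)
    {ψ : List X → F} (hψ : ∀ w, w.length ≠ n → ψ w = 0) (w : List X) :
    ev F ψ (word F w * f) = 0 := by
  have h1 := ev_shift F ψ w [] f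
  rw [word_nil, mul_one] at h1
  rw [h1]
  refine ev_eq_zero F hf fun v hv => hψ _ ?_
  simp only [List.append_nil, List.length_append]
  omega

theorem Good.stepL [Fintype X] (hR : ∀ k, ∀ f ∈ R k, f ∈ Homog F X k) (hR0 : R 0 = ∅)
    (h : Good R l m a b L M)
    (hl : l (a + 1) + (∑ k ∈ Finset.Icc 1 (a + 1), (R k).card * l (a + 1 - k) +
      ∑ j ∈ Finset.Icc 1 b, (R (a + 1 + j)).card * m j) ≤ Fintype.card X * l a) :
    ∃ B, Good R l m (a + 1) b (Function.update L (a + 1) B) M := by
  classical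
  have hfin := h.finL a le_rfl
  have hfE : FiniteDimensional F (consExt (L a)) := finite_consExt _
  let s : Finset ((Σ _ : ℕ, FreeAlgebra F X) ⊕ (Σ _ : ℕ, FreeAlgebra F X)) :=
    ((Finset.Icc 1 (a + 1)).sigma fun k => R k).disjSum
      ((Finset.Icc 1 b).sigma fun j => R (a + 1 + j))
  let K : ((Σ _ : ℕ, FreeAlgebra F X) ⊕ (Σ _ : ℕ, FreeAlgebra F X)) →
      Submodule F (List X → F) :=
    Sum.elim (fun p => killL p.2) (fun p => annL (a + 1) p.2 (M p.1))
  let d : ((Σ _ : ℕ, FreeAlgebra F X) ⊕ (Σ _ : ℕ, FreeAlgebra F X)) → ℕ :=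
    Sum.elim (fun p => l (a + 1 - p.1)) (fun p => m p.1)
  have hcost : ∀ p ∈ s, Cost (consExt (L a)) (K p) (d p) := by
    rintro (⟨k, f⟩ | ⟨j, f⟩) hp
    · rw [Finset.inl_mem_disjSum, Finset.mem_sigma, Finset.mem_Icc] at hp
      exact h.costL hp.1.1 hp.1.2 (hR _ _ hp.2)
    · rw [Finset.inr_mem_disjSum, Finset.mem_sigma, Finset.mem_Icc] at hp
      have := h.finM j hp.1.2
      have h1 := cost_annL (a + 1) f (M j) (consExt (L a))
      rwa [h.rankM j hp.1.2] at h1
  have hsum : ∑ p ∈ s, d p = ∑ k ∈ Finset.Icc 1 (a + 1), (R k).card * l (a + 1 - k) +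
      ∑ j ∈ Finset.Icc 1 b, (R (a + 1 + j)).card * m j := by
    rw [Finset.sum_disjSum, Finset.sum_sigma, Finset.sum_sigma]
    simp only [d, Sum.elim_inl, Sum.elim_inr, Finset.sum_const, smul_eq_mul]
  obtain ⟨B, hBE, hBfin, hBl, hBK⟩ := exists_step s K d hcost (l := l (a + 1)) (by
    rw [hsum, finrank_consExt, h.rankL a le_rfl]
    exact hl)
  refine ⟨B, ?_⟩
  have hup : ∀ i ≤ a, Function.update L (a + 1) B i = L i := fun i hi =>
    Function.update_of_ne (by omega) _ _
  have hup1 : Function.update L (a + 1) B (a + 1) = B := Function.update_self _ _ _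
  have hsupp : ∀ ψ ∈ B, ∀ w : List X, w.length ≠ a + 1 → ψ w = 0 := by
    intro ψ hψ w hw
    have h1 := hBE hψ
    cases w with
    | nil => exact h1.1
    | cons x w => exact h.suppL a le_rfl _ (h1.2 x) w (by simpa using hw)
  have hcase : ∀ i ≤ a + 1, i ≤ a ∨ i = a + 1 := fun i hi => by omega
  refine ⟨?_, h.finM, ?_, h.rankM, ?_, h.suppM, ?_, h.consM, ?_, h.relM, ?_⟩
  · intro i hi
    rcases hcase i hi with hi | rfl
    · rw [hup i hi]; exact h.finL i hi
    · rw [hup1]; exact hBfin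
  · intro i hi
    rcases hcase i hi with hi | rfl
    · rw [hup i hi]; exact h.rankL i hi
    · rw [hup1]; exact hBl
  · intro i hi
    rcases hcase i hi with hi | rfl
    · rw [hup i hi]; exact h.suppL i hi
    · rw [hup1]; exact hsupp
  · intro i hi ψ hψ x
    rcases hcase (i + 1) hi with hi' | hi'
    · rw [hup _ hi'] at hψ
      rw [hup _ (by omega)]
      exact h.consL i hi' ψ hψ x
    · have : i = a := by omega
      subst this
      rw [hup1] at hψ
      rw [hup _ le_rfl]
      exact (hBE hψ).2 x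
  · intro i hi
    rcases hcase i hi with hi | rfl
    · rw [hup i hi]; exact h.relL i hi
    · rw [hup1]
      intro ψ hψ k f hf w
      by_cases hk0 : k = 0
      · subst hk0
        rw [hR0] at hf
        exact absurd hf (Finset.notMem_empty _)
      by_cases hk : k ≤ a + 1
      · have h1 : (Sum.inl ⟨k, f⟩ : ((Σ _ : ℕ, FreeAlgebra F X) ⊕ (Σ _ : ℕ, FreeAlgebra F X)))
            ∈ s := by
          rw [Finset.inl_mem_disjSum, Finset.mem_sigma, Finset.mem_Icc]
          exact ⟨⟨Nat.one_le_iff_ne_zero.mpr hk0, hk⟩, hf⟩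
        exact hBK _ h1 hψ w
      · exact ev_mul_eq_zero (hR k f hf) (by omega) (hsupp ψ hψ) w
  · intro i hi j hj hi1 hj1 f hf
    rcases hcase i hi with hi | rfl
    · rw [hup i hi]; exact h.cross i hi j hj hi1 hj1 f hf
    · rw [hup1]
      intro ψ hψ ρ hρ
      have h1 : (Sum.inr ⟨j, f⟩ : ((Σ _ : ℕ, FreeAlgebra F X) ⊕ (Σ _ : ℕ, FreeAlgebra F X)))
            ∈ s := by
        rw [Finset.inr_mem_disjSum, Finset.mem_sigma, Finset.mem_Icc]
        exact ⟨⟨hj1, hj⟩, hf⟩
      exact hBK _ h1 hψ ρ hρ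

theorem Good.stepM [Fintype X] (hR : ∀ k, ∀ f ∈ R k, f ∈ Homog F X k) (hR0 : R 0 = ∅)
    (h : Good R l m a b L M)
    (hl : m (b + 1) + (∑ k ∈ Finset.Icc 1 (b + 1), (R k).card * m (b + 1 - k) +
      ∑ i ∈ Finset.Icc 1 a, (R (i + (b + 1))).card * l i) ≤ Fintype.card X * m b) :
    ∃ B, Good R l m a (b + 1) L (Function.update M (b + 1) B) := by
  classical
  have hfin := h.finM b le_rfl
  have hfE : FiniteDimensional F (snocExt (M b)) := finite_snocExt _
  let s : Finset ((Σ _ : ℕ, FreeAlgebra F X) ⊕ (Σ _ : ℕ, FreeAlgebra F X)) :=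
    ((Finset.Icc 1 (b + 1)).sigma fun k => R k).disjSum
      ((Finset.Icc 1 a).sigma fun i => R (i + (b + 1)))
  let K : ((Σ _ : ℕ, FreeAlgebra F X) ⊕ (Σ _ : ℕ, FreeAlgebra F X)) →
      Submodule F (List X → F) :=
    Sum.elim (fun p => killM p.2) (fun p => annM p.1 p.2 (L p.1))
  let d : ((Σ _ : ℕ, FreeAlgebra F X) ⊕ (Σ _ : ℕ, FreeAlgebra F X)) → ℕ :=
    Sum.elim (fun p => m (b + 1 - p.1)) (fun p => l p.1)
  have hcost : ∀ p ∈ s, Cost (snocExt (M b)) (K p) (d p) := by
    rintro (⟨k, f⟩ | ⟨j, f⟩) hp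
    · rw [Finset.inl_mem_disjSum, Finset.mem_sigma, Finset.mem_Icc] at hp
      exact h.costM hp.1.1 hp.1.2 (hR _ _ hp.2)
    · rw [Finset.inr_mem_disjSum, Finset.mem_sigma, Finset.mem_Icc] at hp
      have := h.finL j hp.1.2
      have h1 := cost_annM j f (L j) (snocExt (M b))
      rwa [h.rankL j hp.1.2] at h1
  have hsum : ∑ p ∈ s, d p = ∑ k ∈ Finset.Icc 1 (b + 1), (R k).card * m (b + 1 - k) +
      ∑ i ∈ Finset.Icc 1 a, (R (i + (b + 1))).card * l i := by
    rw [Finset.sum_disjSum, Finset.sum_sigma, Finset.sum_sigma]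
    simp only [d, Sum.elim_inl, Sum.elim_inr, Finset.sum_const, smul_eq_mul]
  obtain ⟨B, hBE, hBfin, hBl, hBK⟩ := exists_step s K d hcost (l := m (b + 1)) (by
    rw [hsum, finrank_snocExt, h.rankM b le_rfl]
    exact hl)
  refine ⟨B, ?_⟩
  have hup : ∀ i ≤ b, Function.update M (b + 1) B i = M i := fun i hi =>
    Function.update_of_ne (by omega) _ _
  have hup1 : Function.update M (b + 1) B (b + 1) = B := Function.update_self _ _ _
  have hsupp : ∀ ψ ∈ B, ∀ w : List X, w.length ≠ b + 1 → ψ w = 0 := by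
    intro ψ hψ w hw
    have h1 := hBE hψ
    rcases List.eq_nil_or_concat w with h0 | ⟨v, x, h0⟩
    · subst h0; exact h1.1
    · subst h0
      rw [List.concat_eq_append]
      exact h.suppM b le_rfl _ (h1.2 x) v (by simpa using hw)
  have hcase : ∀ i ≤ b + 1, i ≤ b ∨ i = b + 1 := fun i hi => by omega
  refine ⟨h.finL, ?_, h.rankL, ?_, h.suppL, ?_, h.consL, ?_, h.relL, ?_, ?_⟩
  · intro i hi
    rcases hcase i hi with hi | rfl
    · rw [hup i hi]; exact h.finM i hi
    · rw [hup1]; exact hBfin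
  · intro i hi
    rcases hcase i hi with hi | rfl
    · rw [hup i hi]; exact h.rankM i hi
    · rw [hup1]; exact hBl
  · intro i hi
    rcases hcase i hi with hi | rfl
    · rw [hup i hi]; exact h.suppM i hi
    · rw [hup1]; exact hsupp
  · intro i hi ψ hψ x
    rcases hcase (i + 1) hi with hi' | hi'
    · rw [hup _ hi'] at hψ
      rw [hup _ (by omega)]
      exact h.consM i hi' ψ hψ x
    · have : i = b := by omega
      subst this
      rw [hup1] at hψ
      rw [hup _ le_rfl]
      exact (hBE hψ).2 x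
  · intro i hi
    rcases hcase i hi with hi | rfl
    · rw [hup i hi]; exact h.relM i hi
    · rw [hup1]
      intro ψ hψ k f hf w
      by_cases hk0 : k = 0
      · subst hk0
        rw [hR0] at hf
        exact absurd hf (Finset.notMem_empty _)
      by_cases hk : k ≤ b + 1
      · have h1 : (Sum.inl ⟨k, f⟩ : ((Σ _ : ℕ, FreeAlgebra F X) ⊕ (Σ _ : ℕ, FreeAlgebra F X)))
            ∈ s := by
          rw [Finset.inl_mem_disjSum, Finset.mem_sigma, Finset.mem_Icc]
          exact ⟨⟨Nat.one_le_iff_ne_zero.mpr hk0, hk⟩, hf⟩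
        exact hBK _ h1 hψ w
      · exact ev_mul_eq_zero' (hR k f hf) (by omega) (hsupp ψ hψ) w
  · intro i hi j hj hi1 hj1 f hf ψ hψ
    rcases hcase j hj with hj | rfl
    · rw [hup j hj]; exact h.cross i hi j hj hi1 hj1 f hf ψ hψ
    · rw [hup1]
      intro ρ hρ
      have h1 : (Sum.inr ⟨i, f⟩ : ((Σ _ : ℕ, FreeAlgebra F X) ⊕ (Σ _ : ℕ, FreeAlgebra F X)))
            ∈ s := by
        rw [Finset.inr_mem_disjSum, Finset.mem_sigma, Finset.mem_Icc]
        exact ⟨⟨hi1, hi⟩, hf⟩
      exact hBK _ h1 hρ ψ hψ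

end Vale.Agent.P192.H584
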