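import Vale.Agent.P192.R2.H584.Main

/-!
# P192: the Golod group of `Alg R` and its finitely presented covers
-/

namespace Vale.Agent.P192.H584

open Polynomial Matrix

variable {F : Type*} [Field F] {X : Type*}

theorem golodGroup_fg [Finite X] (R : ℕ → Finset (FreeAlgebra F X)) :
    Group.FG (GolodGroup R) := by
  rw [Group.fg_iff_subgroup_fg]
  refine (Subgroup.fg_iff _).mpr ⟨_, rfl, ?_⟩
  refine Set.Finite.of_injOn (f := fun u : (Alg R)ˣ => (u : Alg R))
    (t := Set.range fun x : X => 1 + quo R (FreeAlgebra.ι F x)) ?_ ?_ (Set.finite_range _)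
  · rintro u ⟨x, hx⟩
    exact ⟨x, hx.symm⟩
  · intro u _ v _ h
    exact Units.ext h

/-- The elements of the Golod group span the algebra. -/
theorem span_golod (R : ℕ → Finset (FreeAlgebra F X))
    (hu : ∀ x : X, IsUnit (1 + quo R (FreeAlgebra.ι F x))) :
    Submodule.span F ((fun u : (Alg R)ˣ => (u : Alg R)) '' (GolodGroup R : Set (Alg R)ˣ)) = ⊤ := by
  let M : Submonoid (Alg R) := (GolodGroup R).toSubmonoid.map (Units.coeHom (Alg R))
  have h1 : Algebra.adjoin F (M : Set (Alg R)) = ⊤ := by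
    rw [eq_top_iff]
    have h2 : (⊤ : Subalgebra F (Alg R)) =
        (Algebra.adjoin F (Set.range (FreeAlgebra.ι F : X → FreeAlgebra F X))).map (quo R) := by
      rw [FreeAlgebra.adjoin_range_ι, Algebra.map_top, eq_comm, AlgHom.range_eq_top]
      exact quo_surj R
    rw [h2, AlgHom.map_adjoin]
    refine Algebra.adjoin_le ?_
    rintro _ ⟨_, ⟨x, rfl⟩, rfl⟩
    obtain ⟨u, hux⟩ := hu x
    have h3 : (u : Alg R) ∈ Algebra.adjoin F (M : Set (Alg R)) :=
      Algebra.subset_adjoin ⟨u, Subgroup.subset_closure ⟨x, hux⟩, rfl⟩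
    have h4 : quo R (FreeAlgebra.ι F x) = (u : Alg R) - 1 := by
      rw [hux, add_sub_cancel_left]
    rw [SetLike.mem_coe, h4]
    exact Subalgebra.sub_mem _ h3 (Subalgebra.one_mem _)
  have h5 := Algebra.adjoin_eq_span F (M : Set (Alg R))
  rw [h1, Submonoid.closure_eq, Algebra.top_toSubmodule] at h5
  exact h5.symm

/-- If the image of `φ` has finite index in the Golod group, the algebra is a finitely generated
module over the span of the image. -/
theorem rspan_of_index (R : ℕ → Finset (FreeAlgebra F X))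
    (hu : ∀ x : X, IsUnit (1 + quo R (FreeAlgebra.ι F x))) {Γ : Type*} [Group Γ]
    (φ : Γ →* (Alg R)ˣ) (hφ : φ.range.relIndex (GolodGroup R) ≠ 0) :
    ∃ s : Set (Alg R), s.Finite ∧ rspan F φ s = ⊤ := by
  have hfi₀ : (φ.range.subgroupOf (GolodGroup R)).FiniteIndex := ⟨hφ⟩
  have hfi : Finite (GolodGroup R ⧸ φ.range.subgroupOf (GolodGroup R)) :=
    Subgroup.finite_quotient_of_finiteIndex
  refine ⟨Set.range fun q : GolodGroup R ⧸ φ.range.subgroupOf (GolodGroup R) =>
    (((Quotient.out q : GolodGroup R) : (Alg R)ˣ) : Alg R), Set.finite_range _, ?_⟩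
  rw [eq_top_iff, ← span_golod R hu, Submodule.span_le]
  rintro _ ⟨u, hu', rfl⟩
  refine Submodule.subset_span ⟨_, ⟨QuotientGroup.mk (⟨u, hu'⟩ : GolodGroup R), rfl⟩, ?_⟩
  obtain ⟨h, hh⟩ := QuotientGroup.mk_out_eq_mul (φ.range.subgroupOf (GolodGroup R))
    (⟨u, hu'⟩ : GolodGroup R)
  obtain ⟨γ, hγ⟩ := Subgroup.mem_subgroupOf.mp (h⁻¹).2
  refine ⟨γ, ?_⟩
  rw [hγ]
  change (u : Alg R) = (((QuotientGroup.mk (⟨u, hu'⟩ : GolodGroup R) :
    GolodGroup R ⧸ φ.range.subgroupOf (GolodGroup R)).out : (Alg R)ˣ) : Alg R) *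
      (((h⁻¹ : φ.range.subgroupOf (GolodGroup R)) : (Alg R)ˣ) : Alg R)
  rw [hh, ← Units.val_mul]
  congr 1
  rw [← Subgroup.coe_mul]
  simp

/-- Passing from units to `1 × 1` matrices. -/
theorem rspan_one {C : Type*} [Ring C] [Algebra F C] {Γ : Type*} [Group Γ] (φ : Γ →* Cˣ)
    (s : Set C) (h : rspan F φ s = ⊤) :
    rspan F ((Units.map ((scalarAlgHom (Fin 1) F : C →ₐ[F] Matrix (Fin 1) (Fin 1) C) :
        C →* Matrix (Fin 1) (Fin 1) C)).comp φ)
      ((fun c => scalarAlgHom (Fin 1) F c) '' s) = ⊤ := by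
  rw [eq_top_iff]
  intro M _
  have hM : M = scalarAlgHom (Fin 1) F (M 0 0) := by
    ext i j
    rw [Subsingleton.elim i 0, Subsingleton.elim j 0]
    simp
  have h1 : M 0 0 ∈ rspan F φ s := by rw [h]; trivial
  rw [hM]
  generalize M 0 0 = c at h1
  clear hM
  induction h1 using Submodule.span_induction with
  | mem a h =>
    obtain ⟨g, hg, γ', rfl⟩ := h
    refine Submodule.subset_span ⟨_, ⟨g, hg, rfl⟩, γ', ?_⟩
    exact map_mul _ _ _
  | zero => rw [map_zero]; exact Submodule.zero_mem _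
  | add a b _ _ ha hb => rw [map_add]; exact Submodule.add_mem _ ha hb
  | smul c a _ ha => rw [map_smul]; exact Submodule.smul_mem _ _ ha

/-- Finitely presented groups whose image has finite index in a Golod group have infinite linear
images. -/
theorem exists_linear_group [Fintype X] {R : ℕ → Finset (FreeAlgebra F X)} {n d : ℕ}
    (hR : ∀ k, ∀ f ∈ R k, f ∈ Homog F X k) (hcard : ∀ k, (R k).card ≤ n)
    (hd : ∀ k < d, R k = ∅) (h6 : 6 ≤ d) (hn : 1 ≤ n) (hnd : n * d < 2 ^ (d - 1))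
    (hX : 3 * n + 2 ≤ Fintype.card X)
    (hu : ∀ x : X, IsUnit (1 + quo R (FreeAlgebra.ι F x))) {Γ : Type*} [Group Γ]
    (hΓ : Group.IsFinitelyPresented Γ)
    (φ : Γ →* (Alg R)ˣ) (hφ : φ.range.relIndex (GolodGroup R) ≠ 0) :
    ∃ (K : ℕ) (ρ : Γ →* GL (Fin K) F[X]), ¬ Finite ρ.range := by
  obtain ⟨s, hs, hs'⟩ := rspan_of_index R hu φ hφ
  exact exists_linear hR hcard hd h6 hn hnd hX hΓ le_rfl _ _ (hs.image _) (rspan_one φ s hs')

/-- Golod groups are infinite. -/
theorem golod_infinite [Fintype X] {R : ℕ → Finset (FreeAlgebra F X)} {n d : ℕ}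
    (hR : ∀ k, ∀ f ∈ R k, f ∈ Homog F X k) (hcard : ∀ k, (R k).card ≤ n)
    (hd : ∀ k < d, R k = ∅) (h6 : 6 ≤ d) (hn : 1 ≤ n) (hnd : n * d < 2 ^ (d - 1))
    (hX : 3 * n + 2 ≤ Fintype.card X)
    (hu : ∀ x : X, IsUnit (1 + quo R (FreeAlgebra.ι F x))) : Infinite (GolodGroup R) := by
  by_contra h
  rw [not_infinite_iff_finite] at h
  obtain ⟨K, ρ, hρ⟩ := exists_linear_group hR hcard hd h6 hn hnd hX hu
    (Γ := GolodGroup R) inferInstance (GolodGroup R).subtype (by
      rw [Subgroup.range_subtype, Subgroup.relIndex_self]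
      exact one_ne_zero)
  have : Finite ρ.range := Finite.of_surjective _ ρ.rangeRestrict_surjective
  exact hρ this

end Vale.Agent.P192.H584
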