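import Vale.Agent.P192.R2.H584.Exist

/-!
# P192: the functional of one period
-/

namespace Vale.Agent.P192.H584

open Module

variable {F : Type*} [Field F] {X : Type*}

/-- The functional of one period. -/
structure Lam (R : ℕ → Finset (FreeAlgebra F X)) (N : ℕ) (L M : ℕ → Submodule F (List X → F))
    (lam : List X → F) : Prop where
  supp : ∀ w, w.length ≠ 2 * N → lam w = 0
  tail : ∀ u : List X, u.length = N → (fun w => lam (u ++ w)) ∈ L N
  head : ∀ v : List X, v.length = N → (fun w => lam (w ++ v)) ∈ M N
  junc : ∀ k, k ≤ N → ∀ f ∈ R k, ∀ i, 1 ≤ i → i < k → ∀ w : List X, w.length = N - i → ∀ a,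
    ev F (fun v => lam (w ++ v ++ a)) f = 0
  ne : ∃ w, lam w ≠ 0

theorem ev_sum {ι : Type*} (s : Finset ι) (c : ι → F) (φ : ι → List X → F)
    (a : FreeAlgebra F X) :
    ev F (fun v => ∑ i ∈ s, c i * φ i v) a = ∑ i ∈ s, c i * ev F (φ i) a := by
  classical
  induction s using Finset.induction_on with
  | empty =>
    have := ev_smul F (0 : F) (0 : List X → F) a
    rw [zero_smul, zero_mul] at this
    simpa using! this
  | insert i s hi ih =>
    rw [Finset.sum_insert hi, ← ih, ← ev_smul, ← ev_add]
    have : (fun v => ∑ i ∈ insert i s, c i * φ i v) =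
        c i • φ i + fun v => ∑ i ∈ s, c i * φ i v := by
      funext v
      simp [Finset.sum_insert hi]
    rw [this]

theorem mem_of_homog {f : FreeAlgebra F X} {k : ℕ} (hf : f ∈ Homog F X k)
    {N : Submodule F (List X → F)} {φ : List X → List X → F}
    (h : ∀ v : List X, v.length = k → φ v ∈ N) : (fun w => ev F (fun v => φ v w) f) ∈ N := by
  induction hf using Submodule.span_induction with
  | mem a h1 =>
    obtain ⟨u, hu, rfl⟩ := h1
    have : (fun w => ev F (fun v => φ v w) (word F u)) = φ u := by
      funext w
      rw [ev_word]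
    rw [this]
    exact h u hu
  | zero =>
    have : (fun w => ev F (fun v => φ v w) (0 : FreeAlgebra F X)) = 0 := by
      funext w
      rw [map_zero]
      rfl
    rw [this]
    exact N.zero_mem
  | add a b _ _ ha hb =>
    have : (fun w => ev F (fun v => φ v w) (a + b)) =
        (fun w => ev F (fun v => φ v w) a) + (fun w => ev F (fun v => φ v w) b) := by
      funext w
      rw [map_add]
      rfl
    rw [this]
    exact N.add_mem ha hb
  | smul c a _ ha =>
    have : (fun w => ev F (fun v => φ v w) (c • a)) = c • (fun w => ev F (fun v => φ v w) a) := by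
      funext w
      rw [map_smul]
      rfl
    rw [this]
    exact N.smul_mem c ha

theorem sum_weights_aux (e J : ℕ) :
    ∑ k ∈ Finset.Icc (e + 1) (e + J), (k - 1) * 2 ^ (e + J - k) + (e + J + 1) =
      (e + 1) * 2 ^ J := by
  induction J with
  | zero => simp
  | succ J ih =>
    have h1 : ∑ k ∈ Finset.Icc (e + 1) (e + (J + 1)), (k - 1) * 2 ^ (e + (J + 1) - k) =
        2 * (∑ k ∈ Finset.Icc (e + 1) (e + J), (k - 1) * 2 ^ (e + J - k)) + (e + J) := by
      rw [← add_assoc, Finset.sum_Icc_succ_top (by omega), Finset.mul_sum]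
      congr 1
      · refine Finset.sum_congr rfl fun k hk => ?_
        rw [Finset.mem_Icc] at hk
        rw [show e + J + 1 - k = (e + J - k) + 1 by omega, pow_succ]
        ring
      · simp
    rw [h1, pow_succ]
    have : (e + 1) * (2 ^ J * 2) = 2 * ((e + 1) * 2 ^ J) := by ring
    rw [this, ← ih]
    ring

theorem sum_weights (d N : ℕ) (hd : d ≤ N + 1) (hd1 : 1 ≤ d) :
    ∑ k ∈ Finset.Icc d N, (k - 1) * 2 ^ (N - k) + (N + 1) = d * 2 ^ (N + 1 - d) := by
  obtain ⟨e, rfl⟩ : ∃ e, d = e + 1 := ⟨d - 1, by omega⟩
  obtain ⟨J, rfl⟩ : ∃ J, N = e + J := ⟨N - e, by omega⟩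
  rw [sum_weights_aux, show e + J + 1 - (e + 1) = J by omega]

section

variable {R : ℕ → Finset (FreeAlgebra F X)} {L M : ℕ → Submodule F (List X → F)} {N : ℕ}

open Classical in
/-- The coordinates of `ρ_s(· u)`. -/
noncomputable def cf (h : Good R lD mD N N L M) (i : ℕ) [FiniteDimensional F (M N)]
    [FiniteDimensional F (M (N - i))] (u : List X)
    (s : Fin (finrank F (M N))) (s' : Fin (finrank F (M (N - i)))) : F :=
  if hu : u.length = i ∧ i ≤ N then
    (finBasis F (M (N - i))).repr
      ⟨fun w => (finBasis F (M N) s : List X → F) (w ++ u), by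
        have := h.contrM le_rfl (finBasis F (M N) s).2 u (by omega)
        rwa [hu.1] at this⟩ s'
  else 0

theorem cf_spec (h : Good R lD mD N N L M) {i : ℕ} (hi : i ≤ N) [FiniteDimensional F (M N)]
    [FiniteDimensional F (M (N - i))] {u : List X} (hu : u.length = i)
    (s : Fin (finrank F (M N))) (w : List X) :
    (finBasis F (M N) s : List X → F) (w ++ u) =
      ∑ s', cf h i u s s' * (finBasis F (M (N - i)) s' : List X → F) w := by
  have hu' : u.length = i ∧ i ≤ N := ⟨hu, hi⟩
  have h1 := (finBasis F (M (N - i))).sum_repr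
    ⟨fun w => (finBasis F (M N) s : List X → F) (w ++ u), by
        have := h.contrM le_rfl (finBasis F (M N) s).2 u (by omega)
        rwa [hu'.1] at this⟩
  have h2 := congrFun (congrArg Subtype.val h1) w
  rw [Submodule.coe_sum, Finset.sum_apply] at h2
  rw [← h2]
  refine Finset.sum_congr rfl fun s' _ => ?_
  rw [cf, dif_pos hu']
  rfl

/-- The functional attached to a family of elements of `L N`. -/
noncomputable def lamOf [FiniteDimensional F (M N)] (θ : Fin (finrank F (M N)) → L N) :
    List X → F :=
  fun w => ∑ s, (finBasis F (M N) s : List X → F) (w.take N) * (θ s : List X → F) (w.drop N)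

/-- The obstruction at the junction. -/
noncomputable def obs (h : Good R lD mD N N L M) (i k : ℕ) (f : FreeAlgebra F X)
    (hf : f ∈ Homog F X k) (hik : i < k) (hk : k ≤ N) [FiniteDimensional F (M N)]
    [FiniteDimensional F (M (N - i))] :
    (Fin (finrank F (M N)) → L N) →ₗ[F] (Fin (finrank F (M (N - i))) → L (N - (k - i))) where
  toFun θ := fun s' => ⟨fun w => ev F (fun v =>
    ∑ s, cf h i (v.take i) s s' * (θ s : List X → F) (v.drop i ++ w)) f, by
      refine mem_of_homog (φ := fun v w =>
        ∑ s, cf h i (v.take i) s s' * (θ s : List X → F) (v.drop i ++ w)) hf fun v hv => ?_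
      have h1 : (fun w => ∑ s, cf h i (v.take i) s s' * (θ s : List X → F) (v.drop i ++ w)) =
          ∑ s, cf h i (v.take i) s s' • (fun w => (θ s : List X → F) (v.drop i ++ w)) := by
        funext w
        rw [Finset.sum_apply]
        rfl
      rw [h1]
      refine Submodule.sum_mem _ fun s _ => Submodule.smul_mem _ _ ?_
      have h2 := h.contrL le_rfl (θ s).2 (v.drop i) (by rw [List.length_drop]; omega)
      rwa [List.length_drop, hv] at h2⟩
  map_add' θ θ' := by
    funext s'
    apply Subtype.ext
    funext w
    change ev F _ f = ev F _ f + ev F _ f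
    rw [← ev_add]
    congr 2
    funext v
    simp [mul_add, Finset.sum_add_distrib]
  map_smul' c θ := by
    funext s'
    apply Subtype.ext
    funext w
    change ev F _ f = c * ev F _ f
    rw [← ev_smul]
    congr 2
    funext v
    simp only [Pi.smul_apply, Submodule.coe_smul, smul_eq_mul, Finset.mul_sum]
    exact Finset.sum_congr rfl fun s _ => by ring

theorem obs_spec (h : Good R lD mD N N L M) {i k : ℕ} {f : FreeAlgebra F X}
    (hf : f ∈ Homog F X k) (hik : i < k) (hk : k ≤ N) [FiniteDimensional F (M N)]
    [FiniteDimensional F (M (N - i))] (θ : Fin (finrank F (M N)) → L N)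
    (h0 : obs h i k f hf hik hk θ = 0) (w : List X) (hw : w.length = N - i) (a : List X) :
    ev F (fun v => lamOf θ (w ++ v ++ a)) f = 0 := by
  have h1 : ev F (fun v => lamOf θ (w ++ v ++ a)) f =
      ev F (fun v => ∑ s', (finBasis F (M (N - i)) s' : List X → F) w *
        ∑ s, cf h i (v.take i) s s' * (θ s : List X → F) (v.drop i ++ a)) f := by
    refine ev_congr F hf fun v hv => ?_
    have e1 : (w ++ v ++ a).take N = w ++ v.take i := by
      rw [List.append_assoc, List.take_append, hw, List.take_of_length_le (by omega),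
        show N - (N - i) = i by omega, List.take_append_of_le_length (by omega)]
    have e2 : (w ++ v ++ a).drop N = v.drop i ++ a := by
      rw [List.append_assoc, List.drop_append, hw, List.drop_eq_nil_of_le (by omega),
        show N - (N - i) = i by omega, List.drop_append_of_le_length (by omega), List.nil_append]
    rw [lamOf]
    simp only [e1, e2]
    have e3 : (v.take i).length = i := by rw [List.length_take]; omega
    calc ∑ s, (finBasis F (M N) s : List X → F) (w ++ v.take i) * (θ s : List X → F) (v.drop i ++ a)
        = ∑ s, ∑ s', (cf h i (v.take i) s s' * (finBasis F (M (N - i)) s' : List X → F) w) *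
            (θ s : List X → F) (v.drop i ++ a) := by
          refine Finset.sum_congr rfl fun s _ => ?_
          rw [cf_spec h (by omega) e3, Finset.sum_mul]
      _ = ∑ s', ∑ s, (cf h i (v.take i) s s' * (finBasis F (M (N - i)) s' : List X → F) w) *
            (θ s : List X → F) (v.drop i ++ a) := Finset.sum_comm
      _ = _ := by
          refine Finset.sum_congr rfl fun s' _ => ?_
          rw [Finset.mul_sum]
          exact Finset.sum_congr rfl fun s _ => by ring
  rw [h1, ev_sum]
  refine Finset.sum_eq_zero fun s' _ => ?_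
  have h2 := congrFun (congrArg Subtype.val (congrFun h0 s')) a
  have h3 : ev F (fun v => ∑ s, cf h i (v.take i) s s' * (θ s : List X → F) (v.drop i ++ a)) f = 0 :=
    h2
  rw [h3, mul_zero]

end

end Vale.Agent.P192.H584
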