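import Vale.Agent.P192.R2.H584.Alg
import Vale.Agent.P192.H903.Ring

/-!
# P192: infinite linear images of finitely presented groups mapping onto Golod groups
-/

namespace Vale.Agent.P192.H584

open Polynomial Matrix

variable {F : Type*} [Field F] {X : Type*}

/-- Infinite linear images. -/
theorem exists_linear [Fintype X] {R : ℕ → Finset (FreeAlgebra F X)} {n d : ℕ}
    (hR : ∀ k, ∀ f ∈ R k, f ∈ Homog F X k) (hcard : ∀ k, (R k).card ≤ n)
    (hd : ∀ k < d, R k = ∅) (h6 : 6 ≤ d) (hn : 1 ≤ n) (hnd : n * d < 2 ^ (d - 1))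
    (hX : 3 * n + 2 ≤ Fintype.card X) {Γ : Type*} [Group Γ]
    (hΓ : Group.IsFinitelyPresented Γ) {r : ℕ} (hr : 1 ≤ r) (φ : Γ →* GL (Fin r) (Alg R))
    (s : Set (Matrix (Fin r) (Fin r) (Alg R))) (hs : s.Finite) (hφ : rspan F φ s = ⊤) :
    ∃ (K : ℕ) (ρ : Γ →* GL (Fin K) F[X]), ¬ Finite ρ.range := by
  obtain ⟨N, ψ, -, hψ⟩ := ((towerAlg R).matrix r).main (genMat F X r) (genMat_finite r)
    (adjoin_genMat r) hΓ φ s hs hφ
  obtain ⟨K, τ, hτ, hinf⟩ := exists_rep hR hcard hd h6 hn hnd hX N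
  have hτ' : ∀ k, ∀ a ∈ trunc R N k, τ a = 0 := fun k a ha =>
    hτ k (mem_trunc.mp ha).1 a (mem_trunc.mp ha).2
  let σ₀ : Alg (trunc R N) →ₐ[F] Matrix (Fin K) (Fin K) F[X] := liftAlg (trunc R N) τ hτ'
  let σ : Matrix (Fin r) (Fin r) (Alg (trunc R N)) →ₐ[F]
      Matrix (Fin (r * K)) (Fin (r * K)) F[X] :=
    ((reindexAlgEquiv F F[X] finProdFinEquiv).toAlgHom.comp
      (compAlgEquiv (Fin r) (Fin K) F[X] F).toAlgHom).comp σ₀.mapMatrix
  refine ⟨r * K, (Units.map (σ : Matrix (Fin r) (Fin r) (Alg (trunc R N)) →*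
    Matrix (Fin (r * K)) (Fin (r * K)) F[X])).comp ψ, hψ _ σ fun hfin => hinf ?_⟩
  let i₀ : Fin r := ⟨0, hr⟩
  let L : Matrix (Fin (r * K)) (Fin (r * K)) F[X] →ₗ[F] Matrix (Fin K) (Fin K) F[X] :=
    { toFun := fun M => M.submatrix (fun j => finProdFinEquiv (i₀, j))
        (fun j => finProdFinEquiv (i₀, j))
      map_add' := fun _ _ => rfl
      map_smul' := fun _ _ => rfl }
  have hle : LinearMap.range τ.toLinearMap ≤ (LinearMap.range σ.toLinearMap).map L := by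
    rintro _ ⟨a, rfl⟩
    refine ⟨_, ⟨single i₀ i₀ (quo (trunc R N) a), rfl⟩, ?_⟩
    refine Matrix.ext fun i j => ?_
    change σ₀ ((single i₀ i₀ (quo (trunc R N) a) : Matrix (Fin r) (Fin r) (Alg (trunc R N)))
      (finProdFinEquiv.symm (finProdFinEquiv (i₀, i))).1
      (finProdFinEquiv.symm (finProdFinEquiv (i₀, j))).1)
      (finProdFinEquiv.symm (finProdFinEquiv (i₀, i))).2
      (finProdFinEquiv.symm (finProdFinEquiv (i₀, j))).2 = τ a i j
    rw [Equiv.symm_apply_apply, Equiv.symm_apply_apply]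
    change σ₀ ((single i₀ i₀ (quo (trunc R N) a) : Matrix (Fin r) (Fin r) (Alg (trunc R N)))
      i₀ i₀) i j = τ a i j
    rw [single_apply_same, liftAlg_quo]
  exact Submodule.finiteDimensional_of_le hle

/-- The periodic case. -/
theorem not_periodic {Γ : Type*} [Group Γ] (hΓ : Group.IsFinitelyPresented Γ) {K : ℕ}
    (ρ : Γ →* GL (Fin K) F[X]) (hρ : ¬ Finite ρ.range) : ¬ ∀ γ : Γ, IsOfFinOrder γ := by
  intro h
  have := Vale.Agent.P192.H903.fg_of_fp hΓ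
  exact hρ (Vale.Agent.P192.H903.finite_of_fg_periodic h ρ)

end Vale.Agent.P192.H584
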