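import Vale.Agent.P192.R2.H584.Golod

/-!
# P192: Golod groups are p-groups
-/

namespace Vale.Agent.P192.H584

open Polynomial

variable {F : Type*} [Field F] {X : Type*}

theorem homog_aug {k : ℕ} (hk : k ≠ 0) {f : FreeAlgebra F X} (hf : f ∈ Homog F X k) :
    aug F X f = 0 := by
  have h : Homog F X k ≤ LinearMap.ker (aug F X).toLinearMap := by
    refine Submodule.span_le.mpr ?_
    rintro _ ⟨w, hw, rfl⟩
    change aug F X (word F w) = 0
    rw [aug_word, if_neg (by omega)]
  exact h hf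

/-- The augmentation of `Alg R`. -/
noncomputable def augR (R : ℕ → Finset (FreeAlgebra F X))
    (hR : ∀ k, ∀ f ∈ R k, f ∈ Homog F X k) (h0 : R 0 = ∅) : Alg R →ₐ[F] F :=
  liftAlg R (aug F X) fun k a ha => by
    refine homog_aug ?_ (hR k a ha)
    rintro rfl
    rw [h0] at ha
    simp at ha

theorem isUnit_one_add {R : ℕ → Finset (FreeAlgebra F X)}
    (hnil : ∀ a, aug F X a = 0 → IsNilpotent (quo R a)) (x : X) :
    IsUnit (1 + quo R (FreeAlgebra.ι F x)) := by
  refine IsNilpotent.isUnit_one_add (hnil _ ?_)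
  simp [aug]

theorem isPGroup_golod {R : ℕ → Finset (FreeAlgebra F X)}
    (hR : ∀ k, ∀ f ∈ R k, f ∈ Homog F X k) (h0 : R 0 = ∅)
    (hnil : ∀ a, aug F X a = 0 → IsNilpotent (quo R a)) {p : ℕ} [Fact p.Prime] [CharP F p] :
    IsPGroup p (GolodGroup R) := by
  let ε := augR R hR h0
  have hnt : Nontrivial (Alg R) := ε.toRingHom.domain_nontrivial
  have hchar : CharP (Alg R) p := charP_of_injective_algebraMap (algebraMap F (Alg R)).injective p
  have hle : GolodGroup R ≤ (Units.map (ε : Alg R →* F)).ker := by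
    refine (Subgroup.closure_le _).mpr ?_
    rintro u ⟨x, hx⟩
    rw [SetLike.mem_coe, MonoidHom.mem_ker]
    refine Units.ext ?_
    change ε (u : Alg R) = 1
    rw [hx, map_add, map_one]
    change 1 + liftAlg R (aug F X) _ (quo R (FreeAlgebra.ι F x)) = 1
    rw [liftAlg_quo]
    simp [aug]
  rintro ⟨u, hu⟩
  obtain ⟨a, ha⟩ := quo_surj R (u : Alg R)
  have h1 : aug F X (a - 1) = 0 := by
    have h2 := congrArg Units.val (MonoidHom.mem_ker.mp (hle hu))
    change ε (u : Alg R) = 1 at h2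
    rw [← ha] at h2
    change liftAlg R (aug F X) _ (quo R a) = 1 at h2
    rw [liftAlg_quo] at h2
    rw [map_sub, h2, map_one, sub_self]
  obtain ⟨m, hm⟩ := hnil _ h1
  refine ⟨m, Subtype.ext (Units.ext ?_)⟩
  change (u : Alg R) ^ p ^ m = 1
  have h3 : (u : Alg R) = 1 + quo R (a - 1) := by
    rw [map_sub, ha, map_one, add_sub_cancel]
  have h4 : m ≤ p ^ m := (Nat.lt_pow_self (Fact.out : p.Prime).one_lt).le
  rw [h3, add_pow_char_pow_of_commute _ _ (Commute.one_left _), one_pow,
    pow_eq_zero_of_le h4 hm, add_zero]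

end Vale.Agent.P192.H584
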