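import Vale.Agent.P192.R2.H584.Junction

/-!
# P192: existence of the functional of one period
-/

namespace Vale.Agent.P192.H584

open Module

variable {F : Type*} [Field F] {X : Type*}
variable {R : ℕ → Finset (FreeAlgebra F X)} {L M : ℕ → Submodule F (List X → F)} {N : ℕ}

theorem lamOf_add [FiniteDimensional F (M N)] (θ θ' : Fin (finrank F (M N)) → L N) :
    lamOf (θ + θ') = lamOf θ + lamOf θ' := by
  funext w
  simp [lamOf, mul_add, Finset.sum_add_distrib]

theorem lamOf_smul [FiniteDimensional F (M N)] (c : F) (θ : Fin (finrank F (M N)) → L N) :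
    lamOf (c • θ) = c • lamOf θ := by
  funext w
  simp only [lamOf, Pi.smul_apply, Submodule.coe_smul, smul_eq_mul, Finset.mul_sum]
  exact Finset.sum_congr rfl fun s _ => by ring

/-- The families for which the junction condition holds. -/
def killJ [FiniteDimensional F (M N)] (i : ℕ) (f : FreeAlgebra F X) :
    Submodule F (Fin (finrank F (M N)) → L N) where
  carrier := {θ | ∀ w : List X, w.length = N - i → ∀ a,
    ev F (fun v => lamOf θ (w ++ v ++ a)) f = 0}
  add_mem' := fun {θ θ'} h h' w hw a => by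
    have : (fun v => lamOf (θ + θ') (w ++ v ++ a)) =
      (fun v => lamOf θ (w ++ v ++ a)) + (fun v => lamOf θ' (w ++ v ++ a)) := by
      funext v; rw [lamOf_add]; rfl
    rw [this, ev_add, h w hw a, h' w hw a, add_zero]
  zero_mem' := fun w hw a => by
    have : (fun v => lamOf (0 : Fin (finrank F (M N)) → L N) (w ++ v ++ a)) =
      (0 : F) • (fun _ => 0) := by
      funext v; simp [lamOf]
    rw [this, ev_smul, zero_mul]
  smul_mem' := fun c θ h w hw a => by
    have : (fun v => lamOf (c • θ) (w ++ v ++ a)) = c • (fun v => lamOf θ (w ++ v ++ a)) := by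
      funext v; rw [lamOf_smul]; rfl
    rw [this, ev_smul, h w hw a, mul_zero]

theorem sum_junction {n d : ℕ} (hcard : ∀ k, (R k).card ≤ n) (h6 : 6 ≤ d)
    (hnd : n * d < 2 ^ (d - 1)) (hN : d ≤ N) :
    ∑ k ∈ Finset.Icc d N, (R k).card * ∑ i ∈ Finset.Ico 1 k, mD (N - i) * lD (N - (k - i)) <
      mD N * lD N := by
  have h1 : 8 * ∑ k ∈ Finset.Icc d N, (R k).card * ∑ i ∈ Finset.Ico 1 k,
      mD (N - i) * lD (N - (k - i)) ≤
      ∑ k ∈ Finset.Icc d N, n * ((k - 1) * (11 * (2 ^ N * 2 ^ (N - k)))) := by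
    rw [Finset.mul_sum]
    refine Finset.sum_le_sum fun k hk => ?_
    rw [Finset.mem_Icc] at hk
    have h2 : 8 * ∑ i ∈ Finset.Ico 1 k, mD (N - i) * lD (N - (k - i)) ≤
        (k - 1) * (11 * (2 ^ N * 2 ^ (N - k))) := by
      rw [Finset.mul_sum]
      have h3 : ∀ i ∈ Finset.Ico 1 k, 8 * (mD (N - i) * lD (N - (k - i))) ≤
          11 * (2 ^ N * 2 ^ (N - k)) := by
        intro i hi
        rw [Finset.mem_Ico] at hi
        calc 8 * (mD (N - i) * lD (N - (k - i))) = mD (N - i) * (8 * lD (N - (k - i))) := by ring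
          _ ≤ 2 ^ (N - i) * (11 * 2 ^ (N - (k - i))) := Nat.mul_le_mul le_rfl (lD_le _)
          _ = 11 * (2 ^ (N - i) * 2 ^ (N - (k - i))) := by ring
          _ = 11 * (2 ^ N * 2 ^ (N - k)) := by
            rw [← pow_add, ← pow_add]
            congr 2
            omega
      calc ∑ i ∈ Finset.Ico 1 k, 8 * (mD (N - i) * lD (N - (k - i)))
          ≤ ∑ i ∈ Finset.Ico 1 k, 11 * (2 ^ N * 2 ^ (N - k)) := Finset.sum_le_sum h3
        _ = _ := by rw [Finset.sum_const, Nat.card_Ico, smul_eq_mul]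
    calc 8 * ((R k).card * ∑ i ∈ Finset.Ico 1 k, mD (N - i) * lD (N - (k - i)))
        = (R k).card * (8 * ∑ i ∈ Finset.Ico 1 k, mD (N - i) * lD (N - (k - i))) := by ring
      _ ≤ n * ((k - 1) * (11 * (2 ^ N * 2 ^ (N - k)))) := Nat.mul_le_mul (hcard k) h2
  have h2 : ∑ k ∈ Finset.Icc d N, n * ((k - 1) * (11 * (2 ^ N * 2 ^ (N - k)))) =
      11 * 2 ^ N * (n * ∑ k ∈ Finset.Icc d N, (k - 1) * 2 ^ (N - k)) := by
    rw [Finset.mul_sum, Finset.mul_sum]
    exact Finset.sum_congr rfl fun k _ => by ring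
  have h3 := sum_weights d N (by omega) (by omega)
  have h4 : n * ∑ k ∈ Finset.Icc d N, (k - 1) * 2 ^ (N - k) < 2 ^ N := by
    calc n * ∑ k ∈ Finset.Icc d N, (k - 1) * 2 ^ (N - k)
        ≤ n * (d * 2 ^ (N + 1 - d)) := Nat.mul_le_mul_left _ (by omega)
      _ = (n * d) * 2 ^ (N + 1 - d) := by ring
      _ < 2 ^ (d - 1) * 2 ^ (N + 1 - d) := Nat.mul_lt_mul_of_pos_right hnd (by positivity)
      _ = 2 ^ N := by rw [← pow_add]; congr 1; omega
  have h5 : 11 * 2 ^ N * (n * ∑ k ∈ Finset.Icc d N, (k - 1) * 2 ^ (N - k)) <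
      11 * 2 ^ N * 2 ^ N := Nat.mul_lt_mul_of_pos_left h4 (by positivity)
  have h6' : 8 * (mD N * lD N) = 11 * 2 ^ N * 2 ^ N := by
    have := lD_eq (i := N) (by omega)
    calc 8 * (mD N * lD N) = 2 ^ N * (8 * lD N) := by unfold mD; ring
      _ = _ := by rw [this]; ring
  rw [h2] at h1
  omega

theorem exists_lam {n d : ℕ} (h : Good R lD mD N N L M)
    (hR : ∀ k, ∀ f ∈ R k, f ∈ Homog F X k) (hcard : ∀ k, (R k).card ≤ n)
    (hd : ∀ k < d, R k = ∅) (h6 : 6 ≤ d) (hnd : n * d < 2 ^ (d - 1)) (hN : d ≤ N) :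
    ∃ lam, Lam R N L M lam := by
  classical
  have finL := h.finL
  have finM := h.finM
  have : FiniteDimensional F (M N) := finM N le_rfl
  have : FiniteDimensional F (L N) := finL N le_rfl
  let V := Fin (finrank F (M N)) → L N
  have hfinV : FiniteDimensional F V := inferInstance
  have hrankV : finrank F V = mD N * lD N := by
    have h1 : finrank F V = finrank F (M N) * finrank F (L N) := by
      rw [Module.finrank_pi_fintype]; simp
    rw [h1, h.rankM N le_rfl, h.rankL N le_rfl]
  let s : Finset (Σ _ : ℕ, Σ _ : FreeAlgebra F X, ℕ) :=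
    (Finset.Icc d N).sigma fun k => (R k).sigma fun _ => Finset.Ico 1 k
  let K : (Σ _ : ℕ, Σ _ : FreeAlgebra F X, ℕ) → Submodule F V :=
    fun p => killJ p.2.2 p.2.1
  let dd : (Σ _ : ℕ, Σ _ : FreeAlgebra F X, ℕ) → ℕ :=
    fun p => mD (N - p.2.2) * lD (N - (p.1 - p.2.2))
  have hcost : ∀ p ∈ s, Cost (⊤ : Submodule F V) (K p) (dd p) := by
    rintro ⟨k, f, i⟩ hp
    simp only [s, Finset.mem_sigma, Finset.mem_Icc, Finset.mem_Ico] at hp
    obtain ⟨⟨hk1, hk2⟩, hf, hi1, hi2⟩ := hp
    have : FiniteDimensional F (M (N - i)) := finM _ (Nat.sub_le _ _)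
    have : FiniteDimensional F (L (N - (k - i))) := finL _ (Nat.sub_le _ _)
    refine cost_of_map (K := K ⟨k, f, i⟩)
      ((obs h i k f (hR k f hf) hi2 hk2) ∘ₗ (⊤ : Submodule F V).subtype) (fun θ hθ => ?_) ?_
    · intro w hw a
      exact obs_spec h (hR k f hf) hi2 hk2 θ.1 hθ w hw a
    · have h1 : finrank F (Fin (finrank F (M (N - i))) → L (N - (k - i))) =
          finrank F (M (N - i)) * finrank F (L (N - (k - i))) := by
        rw [Module.finrank_pi_fintype]; simp
      rw [h1, h.rankM _ (Nat.sub_le _ _), h.rankL _ (Nat.sub_le _ _)]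
  have hsum : ∑ p ∈ s, dd p = ∑ k ∈ Finset.Icc d N, (R k).card *
      ∑ i ∈ Finset.Ico 1 k, mD (N - i) * lD (N - (k - i)) := by
    rw [Finset.sum_sigma]
    refine Finset.sum_congr rfl fun k _ => ?_
    rw [Finset.sum_sigma]
    simp only [dd, Finset.sum_const, smul_eq_mul]
  obtain ⟨B, -, hBfin, hB1, hBK⟩ := exists_step (E := (⊤ : Submodule F V)) s K dd hcost (l := 1) (by
    rw [hsum, finrank_top, hrankV]
    have := sum_junction hcard h6 hnd hN (R := R)
    omega)
  have hBpos : 0 < finrank F B := by omega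
  have hnt : Nontrivial B := Module.nontrivial_of_finrank_pos hBpos
  obtain ⟨⟨θ, hθB⟩, hθ⟩ := exists_ne (0 : B)
  have hθ0 : θ ≠ 0 := fun h0 => hθ (Subtype.ext h0)
  have hsupp : ∀ w : List X, w.length ≠ 2 * N → lamOf θ w = 0 := by
    intro w hw
    refine Finset.sum_eq_zero fun s _ => ?_
    by_cases hlen : (w.take N).length = N
    · rw [h.suppL N le_rfl _ (θ s).2 (w.drop N) (by
        rw [List.length_take] at hlen
        rw [List.length_drop]; omega), mul_zero]
    · rw [h.suppM N le_rfl _ (finBasis F (M N) s).2 (w.take N) hlen, zero_mul]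
  refine ⟨lamOf θ, hsupp, ?_, ?_, ?_, ?_⟩
  · intro u hu
    have : (fun w => lamOf θ (u ++ w)) =
        ∑ s, (finBasis F (M N) s : List X → F) u • (θ s : List X → F) := by
      funext w
      rw [Finset.sum_apply]
      simp only [lamOf, Pi.smul_apply, smul_eq_mul]
      rw [List.take_left' hu, List.drop_left' hu]
    rw [this]
    exact Submodule.sum_mem _ fun s _ => Submodule.smul_mem _ _ (θ s).2
  · intro v hv
    have : (fun w => lamOf θ (w ++ v)) =
        ∑ s, (θ s : List X → F) v • (finBasis F (M N) s : List X → F) := by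
      funext w
      rw [Finset.sum_apply]
      simp only [Pi.smul_apply, smul_eq_mul]
      by_cases hw : w.length = N
      · simp only [lamOf]
        rw [List.take_left' hw, List.drop_left' hw]
        exact Finset.sum_congr rfl fun s _ => mul_comm _ _
      · rw [hsupp _ (by rw [List.length_append]; omega)]
        symm
        refine Finset.sum_eq_zero fun s _ => ?_
        rw [h.suppM N le_rfl _ (finBasis F (M N) s).2 w hw, mul_zero]
    rw [this]
    exact Submodule.sum_mem _ fun s _ => Submodule.smul_mem _ _ (finBasis F (M N) s).2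
  · intro k hk f hf i hi1 hi2 w hw a
    have hkd : d ≤ k := by
      by_contra hlt
      rw [hd k (by omega)] at hf
      exact absurd hf (Finset.notMem_empty _)
    have hp : (⟨k, f, i⟩ : Σ _ : ℕ, Σ _ : FreeAlgebra F X, ℕ) ∈ s := by
      simp only [s, Finset.mem_sigma, Finset.mem_Icc, Finset.mem_Ico]
      exact ⟨⟨hkd, hk⟩, hf, hi1, hi2⟩
    exact hBK _ hp hθB w hw a
  · obtain ⟨s0, hs0⟩ := Function.ne_iff.mp hθ0
    have h1 : (θ s0 : List X → F) ≠ 0 := fun h0 => hs0 (Subtype.ext h0)
    obtain ⟨w2, hw2⟩ := Function.ne_iff.mp h1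
    have hlin : LinearIndependent F (fun s => (finBasis F (M N) s : List X → F)) :=
      (finBasis F (M N)).linearIndependent.map' (M N).subtype (Submodule.ker_subtype _)
    have h2 : ∑ s, (θ s : List X → F) w2 • (finBasis F (M N) s : List X → F) ≠ 0 := by
      intro h0
      exact hw2 (Fintype.linearIndependent_iff.mp hlin _ h0 s0)
    obtain ⟨w1, hw1⟩ := Function.ne_iff.mp h2
    rw [Finset.sum_apply] at hw1
    simp only [Pi.smul_apply, smul_eq_mul, Pi.zero_apply] at hw1
    have hlen : w1.length = N := by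
      by_contra hne
      exact hw1 (Finset.sum_eq_zero fun s _ => by
        rw [h.suppM N le_rfl _ (finBasis F (M N) s).2 w1 hne, mul_zero])
    refine ⟨w1 ++ w2, ?_⟩
    have h3 : lamOf θ (w1 ++ w2) =
        ∑ s, (θ s : List X → F) w2 * (finBasis F (M N) s : List X → F) w1 := by
      simp only [lamOf]
      rw [List.take_left' hlen, List.drop_left' hlen]
      exact Finset.sum_congr rfl fun s _ => mul_comm _ _
    rw [h3]
    exact hw1

end Vale.Agent.P192.H584
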