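import Vale.Agent.P192.R2.H584.Zass

/-!
# P192: groups given by sparse relators deep in the Zassenhaus filtration
-/

namespace Vale.Agent.P192.H584

open Polynomial commutatorElement

variable {p : ℕ} [Fact p.Prime] {F : Type*} [Field F] [CharP F p] {X : Type*}

theorem grd_homog {k : ℕ} {f : FreeAlgebra F X} (hf : f ∈ Homog F X k) : grd f = monomial k f := by
  have h : Homog F X k ≤ LinearMap.eqLocus (grd : FreeAlgebra F X →ₐ[F] _).toLinearMap
      ((monomial k : FreeAlgebra F X →ₗ[FreeAlgebra F X] _).restrictScalars F) := by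
    refine Submodule.span_le.mpr ?_
    rintro _ ⟨w, rfl, rfl⟩
    exact grd_word w
  exact h hf

/-- The grading homomorphism of `Alg R`. -/
noncomputable def grdA (R : ℕ → Finset (FreeAlgebra F X))
    (hR : ∀ k, ∀ f ∈ R k, f ∈ Homog F X k) : Alg R →ₐ[F] (Alg R)[X] :=
  liftAlg (C := (Alg R)[X]) R ((mapAlgHom (quo R)).comp grd) fun k a ha => by
    rw [AlgHom.comp_apply, grd_homog (hR k a ha)]
    change Polynomial.map (quo R : FreeAlgebra F X →+* Alg R) (monomial k a) = 0
    rw [map_monomial]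
    change monomial k (quo R a) = 0
    rw [quo_rel ha, map_zero]

theorem grdA_quo (R : ℕ → Finset (FreeAlgebra F X)) (hR : ∀ k, ∀ f ∈ R k, f ∈ Homog F X k)
    (a : FreeAlgebra F X) (k : ℕ) : (grdA R hR (quo R a)).coeff k = quo R (cmp k a) := by
  unfold grdA
  rw [liftAlg_quo, AlgHom.comp_apply]
  change (Polynomial.map (quo R : FreeAlgebra F X →+* Alg R) (grd a)).coeff k = _
  rw [coeff_map]
  rfl

/-- The positive representative of an element of the free group. -/
noncomputable def pos [DecidableEq X] (F : Type*) [Field F] (e : X → ℕ) (g : FreeGroup X) :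
    FreeAlgebra F X :=
  (g.toWord.map fun x => (1 + FreeAlgebra.ι F x.1) ^ (if x.2 then 1 else e x.1 - 1)).prod

theorem natDegree_list_prod {C : Type*} [Ring C] (l : List C[X]) (P : ℕ)
    (h : ∀ f ∈ l, f.natDegree ≤ P) : l.prod.natDegree ≤ P * l.length := by
  induction l with
  | nil => simp
  | cons f l ih =>
    rw [List.prod_cons, List.length_cons, mul_add, mul_one, add_comm]
    refine natDegree_mul_le.trans (add_le_add (h f (List.mem_cons_self ..)) (ih ?_))
    intro g hg
    exact h g (List.mem_cons_of_mem _ hg)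

theorem natDegree_pos [DecidableEq X] {e : X → ℕ} {P : ℕ} (he : ∀ x, e x ≤ P) (hP : 1 ≤ P)
    (g : FreeGroup X) : (grd (pos F e g)).natDegree ≤ P * g.norm := by
  unfold pos
  rw [map_list_prod, List.map_map]
  have := natDegree_list_prod (g.toWord.map ((grd : FreeAlgebra F X →ₐ[F] _) ∘ fun x =>
    (1 + FreeAlgebra.ι F x.1) ^ (if x.2 then 1 else e x.1 - 1))) P ?_
  · rwa [List.length_map] at this
  · intro f hf
    rw [List.mem_map] at hf
    obtain ⟨x, -, rfl⟩ := hf
    change (grd ((1 + FreeAlgebra.ι F x.1) ^ (if x.2 then 1 else e x.1 - 1))).natDegree ≤ P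
    rw [map_pow]
    refine natDegree_pow_le.trans ?_
    have h1 : (grd (1 + FreeAlgebra.ι F x.1 : FreeAlgebra F X)).natDegree ≤ 1 := by
      rw [map_add, map_one, grd, FreeAlgebra.lift_ι_apply]
      refine (natDegree_add_le _ _).trans (max_le (by simp) (natDegree_monomial_le _))
    calc _ ≤ P * 1 := Nat.mul_le_mul (by
          split_ifs
          · exact hP
          · exact (Nat.sub_le _ _).trans (he _)) h1
      _ = P := mul_one P

section units

variable {R : ℕ → Finset (FreeAlgebra F X)} {a : X → ℕ}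

theorem one_add_pow {C : Type*} [Ring C] [CharP C p] {z : C} {m : ℕ} (h : z ^ p ^ m = 0) :
    (1 + z) ^ p ^ m = 1 := by
  rw [add_pow_char_pow_of_commute _ _ (Commute.one_left _), one_pow, h, add_zero]

/-- The unit `1 + z` for `z ^ p ^ m = 0`. -/
noncomputable def unitOf (p : ℕ) [Fact p.Prime] {C : Type*} [Ring C] [CharP C p] (z : C) (m : ℕ)
    (h : z ^ p ^ m = 0) : Cˣ where
  val := 1 + z
  inv := (1 + z) ^ (p ^ m - 1)
  val_inv := by
    rw [← pow_succ', Nat.sub_add_cancel (Nat.pos_of_ne_zero (pow_ne_zero _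
      (Fact.out : p.Prime).ne_zero)), one_add_pow h]
  inv_val := by
    rw [← pow_succ, Nat.sub_add_cancel (Nat.pos_of_ne_zero (pow_ne_zero _
      (Fact.out : p.Prime).ne_zero)), one_add_pow h]

/-- The homomorphism from the free group to the units of the algebra. -/
noncomputable def theta (p : ℕ) [Fact p.Prime] [CharP (Alg R) p]
    (ha : ∀ x, quo R (FreeAlgebra.ι F x) ^ p ^ a x = 0) : FreeGroup X →* (Alg R)ˣ :=
  FreeGroup.lift fun x => unitOf p (quo R (FreeAlgebra.ι F x)) (a x) (ha x)

omit [CharP F p] in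
theorem theta_eq [DecidableEq X] [CharP (Alg R) p]
    (ha : ∀ x, quo R (FreeAlgebra.ι F x) ^ p ^ a x = 0) (g : FreeGroup X) :
    (theta p ha g : Alg R) = quo R (pos F (fun x => p ^ a x) g) := by
  have h1 : theta p ha g = theta p ha (FreeGroup.mk g.toWord) := by rw [FreeGroup.mk_toWord]
  rw [h1, theta, FreeGroup.lift_mk, pos, map_list_prod, ← Units.coeHom_apply, map_list_prod,
    List.map_map, List.map_map]
  congr 1
  refine List.map_congr_left fun x _ => ?_
  obtain ⟨x, b⟩ := x
  change ((cond b (unitOf p (quo R (FreeAlgebra.ι F x)) (a x) (ha x))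
    (unitOf p (quo R (FreeAlgebra.ι F x)) (a x) (ha x))⁻¹ : (Alg R)ˣ) : Alg R) =
      quo R ((1 + FreeAlgebra.ι F x) ^ (if b then 1 else p ^ a x - 1))
  cases b
  · rw [map_pow, map_add, map_one]
    rfl
  · rw [map_pow, map_add, map_one]
    simp only [if_true, pow_one]
    rfl

omit [CharP F p] in
/-- The image of a deep element of the free group has no components of small positive degree. -/
theorem cmp_theta [DecidableEq X] [CharP (Alg R) p] (hR : ∀ k, ∀ f ∈ R k, f ∈ Homog F X k)
    (ha : ∀ x, quo R (FreeAlgebra.ι F x) ^ p ^ a x = 0) {g : FreeGroup X} {d : ℕ}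
    (hg : g ∈ Zass p X d) (k : ℕ) (hk : k < d) :
    quo R (cmp k (pos F (fun x => p ^ a x) g)) = if k = 0 then 1 else 0 := by
  have hT : ∀ c : (Alg R)[X], Commute (Polynomial.X : (Alg R)[X]) c := fun c => commute_X c
  let θ' : FreeGroup X →* ((Alg R)[X])ˣ :=
    (Units.map (grdA R hR : Alg R →* (Alg R)[X])).comp (theta p ha)
  have h1 : ∀ x, θ' (FreeGroup.of x) ∈ Vd (Polynomial.X : (Alg R)[X]) hT 1 := by
    intro x
    refine ⟨C (quo R (FreeAlgebra.ι F x)), ?_⟩
    change grdA R hR (theta p ha (FreeGroup.of x) : Alg R) = _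
    rw [theta, FreeGroup.lift_apply_of]
    change grdA R hR (1 + quo R (FreeAlgebra.ι F x)) = _
    rw [map_add, map_one, pow_one, X_mul_C]
    congr 1
    unfold grdA
    rw [liftAlg_quo, AlgHom.comp_apply, grd, FreeAlgebra.lift_ι_apply]
    change Polynomial.map (quo R : FreeAlgebra F X →+* Alg R) (monomial 1 _) = _
    rw [map_monomial, ← C_mul_X_eq_monomial]
    rfl
  have hchar : CharP (Alg R)[X] p := inferInstance
  obtain ⟨f, hf⟩ := zass_le (C := (Alg R)[X]) (p := p) (hT := hT) θ' h1 d hg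
  have h2 : grdA R hR (quo R (pos F (fun x => p ^ a x) g)) = 1 + Polynomial.X ^ d * f := by
    rw [← hf, ← theta_eq ha g]
    rfl
  rw [← grdA_quo R hR, h2, coeff_add, coeff_X_pow_mul', if_neg (by omega), add_zero, coeff_one]

omit [CharP F p] in
/-- Killing the components of large degree kills the element. -/
theorem theta_eq_one [DecidableEq X] [CharP (Alg R) p] (hR : ∀ k, ∀ f ∈ R k, f ∈ Homog F X k)
    (ha : ∀ x, quo R (FreeAlgebra.ι F x) ^ p ^ a x = 0) {g : FreeGroup X} {d P : ℕ}
    (hg : g ∈ Zass p X d) (hd : 0 < d) (hP : 1 ≤ P) (haP : ∀ x, p ^ a x ≤ P)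
    (hk : ∀ k, d ≤ k → k ≤ P * g.norm → cmp k (pos F (fun x => p ^ a x) g) ∈ R k) :
    theta p ha g = 1 := by
  refine Units.ext ?_
  rw [theta_eq, Units.val_one, ← sum_cmp (pos F (fun x => p ^ a x) g)
    (natDegree_pos haP hP g), map_sum,
    Finset.sum_eq_single_of_mem 0 (Finset.mem_range.mpr (by omega))]
  · exact (cmp_theta hR ha hg 0 hd).trans (if_pos rfl)
  · intro k hk1 hk0
    rw [Finset.mem_range] at hk1
    by_cases h : k < d
    · rw [cmp_theta hR ha hg k h, if_neg hk0]
    · exact quo_rel (hk k (by omega) (by omega))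

end units

end Vale.Agent.P192.H584
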