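import Vale.Agent.P192.R2.H584.Pres

/-!
# P192: finitely presented covers of groups given by sparse relators
-/

namespace Vale.Agent.P192.H584

open Polynomial

variable {p : ℕ} [Fact p.Prime] {F : Type*} [Field F] [CharP F p] {X : Type*} [Fintype X]
  [DecidableEq X] {ι : Type*}

/-- The exponents of the orders of the generators. -/
noncomputable def aexp (X : Type*) [Fintype X] (c : ℕ) (x : X) : ℕ :=
  c + (Fintype.equivFin X x : ℕ)

omit [DecidableEq X] in
theorem aexp_le (c : ℕ) (x : X) : p ^ aexp X c x ≤ p ^ (c + Fintype.card X) :=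
  Nat.pow_le_pow_right (Fact.out : p.Prime).pos
    (Nat.add_le_add_left (Fintype.equivFin X x).is_lt.le c)

omit [DecidableEq X] in
theorem le_aexp (c : ℕ) (x : X) : p ^ c ≤ p ^ aexp X c x :=
  Nat.pow_le_pow_right (Fact.out : p.Prime).pos (Nat.le_add_right _ _)

/-- The homogeneous relators of degree `k`. -/
def relS (p : ℕ) (F : Type*) [Field F] (c : ℕ) (g : ι → FreeGroup X) (d : ι → ℕ) (k : ℕ) :
    Set (FreeAlgebra F X) :=
  {f | (∃ x, k = p ^ aexp X c x ∧ f = FreeAlgebra.ι F x ^ k) ∨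
    ∃ i, (d i ≤ k ∧ k ≤ p ^ (c + Fintype.card X) * (g i).norm) ∧
      f = cmp k (pos F (fun x => p ^ aexp X c x) (g i))}

omit [CharP F p] in
theorem relS_encard {c n : ℕ} (hn : 1 ≤ n) {g : ι → FreeGroup X} {d : ι → ℕ}
    (hd : ∀ i, p ^ (c + Fintype.card X) < d i)
    (hs : ∀ k, {i | d i ≤ k ∧ k ≤ p ^ (c + Fintype.card X) * (g i).norm}.encard ≤ n) (k : ℕ) :
    (relS p F c g d k).encard ≤ n := by
  by_cases hk : k ≤ p ^ (c + Fintype.card X)
  · have h1 : (relS p F c g d k).Subsingleton := by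
      have h2 : ∀ f ∈ relS p F c g d k, ∃ x, k = p ^ aexp X c x ∧ f = FreeAlgebra.ι F x ^ k := by
        rintro f (h | ⟨i, hi, -⟩)
        · exact h
        · have := hd i
          omega
      intro f hf f' hf'
      obtain ⟨x, hx, rfl⟩ := h2 f hf
      obtain ⟨y, hy, rfl⟩ := h2 f' hf'
      have h3 : aexp X c x = aexp X c y :=
        Nat.pow_right_injective (Fact.out : p.Prime).two_le (hx.symm.trans hy)
      have h4 : x = y := by
        unfold aexp at h3
        exact (Fintype.equivFin X).injective (Fin.ext (Nat.add_left_cancel h3))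
      rw [h4]
    exact (Set.encard_le_one_iff_subsingleton.mpr h1).trans (by exact_mod_cast hn)
  · have h1 : relS p F c g d k ⊆ (fun i => cmp k (pos F (fun x => p ^ aexp X c x) (g i))) ''
        {i | d i ≤ k ∧ k ≤ p ^ (c + Fintype.card X) * (g i).norm} := by
      rintro f (⟨x, hx, -⟩ | ⟨i, hi, rfl⟩)
      · exact absurd (hx ▸ aexp_le (p := p) c x) hk
      · exact ⟨i, hi, rfl⟩
    exact (Set.encard_le_encard h1).trans ((Set.encard_image_le _ _).trans (hs k))

omit [Fintype X] [DecidableEq X] in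
theorem pow_mem_homog (x : X) (k : ℕ) : FreeAlgebra.ι F x ^ k ∈ Homog F X k :=
  Submodule.subset_span ⟨List.replicate k x, List.length_replicate, by simp [word]⟩

theorem sq_le_two_pow {m : ℕ} (hm : 4 ≤ m) : m * m ≤ 2 ^ m := by
  induction m, hm using Nat.le_induction with
  | base => norm_num
  | succ m hm ih => rw [pow_succ]; nlinarith

theorem numeric {n m : ℕ} (h : 3 * n + 2 ≤ m) (hn : 1 ≤ n) : n * (m + 1) < 2 ^ m := by
  have h1 := sq_le_two_pow (m := m) (by omega)
  nlinarith

/-- **Groups given by sparse relators deep in the Zassenhaus filtration.** -/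
theorem pres_main (p : ℕ) [Fact p.Prime] {n c : ℕ} (hn : 1 ≤ n)
    (hc : Fintype.card X < p ^ c) {g : ι → FreeGroup X} {d : ι → ℕ}
    (hg : ∀ i, g i ∈ Zass p X (d i)) (hd : ∀ i, p ^ (c + Fintype.card X) < d i)
    (hs : ∀ k, {i | d i ≤ k ∧ k ≤ p ^ (c + Fintype.card X) * (g i).norm}.encard ≤ n) :
    ∃ (R : ℕ → Finset (FreeAlgebra (ZMod p) X)) (Φ : PresentedGroup (Set.range g) →* (Alg R)ˣ),
      (∀ k, ∀ f ∈ R k, f ∈ Homog (ZMod p) X k) ∧ (∀ k, (R k).card ≤ n) ∧
      (∀ k < Fintype.card X + 1, R k = ∅) ∧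
      (∀ x : X, IsUnit (1 + quo R (FreeAlgebra.ι (ZMod p) x))) ∧ Φ.range = GolodGroup R := by
  have hcard := relS_encard (F := ZMod p) hn hd hs
  have hfin : ∀ k, (relS p (ZMod p) c g d k).Finite := fun k =>
    Set.finite_of_encard_le_coe (hcard k)
  let R : ℕ → Finset (FreeAlgebra (ZMod p) X) := fun k => (hfin k).toFinset
  have hmem : ∀ k f, f ∈ R k ↔ f ∈ relS p (ZMod p) c g d k := fun k f =>
    Set.Finite.mem_toFinset (hfin k)
  have hR : ∀ k, ∀ f ∈ R k, f ∈ Homog (ZMod p) X k := by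
    intro k f hf
    rw [hmem] at hf
    rcases hf with ⟨x, -, rfl⟩ | ⟨i, -, rfl⟩
    · exact pow_mem_homog x k
    · exact cmp_mem _ _
  have hRcard : ∀ k, (R k).card ≤ n := by
    intro k
    have := hcard k
    rw [← Set.Finite.coe_toFinset (hfin k), Set.encard_coe_eq_coe_finsetCard] at this
    exact_mod_cast this
  have hRlow : ∀ k < Fintype.card X + 1, R k = ∅ := by
    intro k hk
    refine Finset.eq_empty_of_forall_notMem fun f hf => ?_
    rw [hmem] at hf
    rcases hf with ⟨x, hx, -⟩ | ⟨i, hi, -⟩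
    · have := le_aexp (p := p) c x
      omega
    · have h1 := hd i
      have h2 : p ^ c ≤ p ^ (c + Fintype.card X) :=
        Nat.pow_le_pow_right (Fact.out : p.Prime).pos (Nat.le_add_right _ _)
      omega
  have h0 : R 0 = ∅ := hRlow 0 (Nat.succ_pos _)
  have ha : ∀ x, quo R (FreeAlgebra.ι (ZMod p) x) ^ p ^ aexp X c x = 0 := by
    intro x
    rw [← map_pow]
    exact quo_rel ((hmem _ _).mpr (Or.inl ⟨x, rfl, rfl⟩))
  let ε := augR R hR h0
  have hnt : Nontrivial (Alg R) := ε.toRingHom.domain_nontrivial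
  have hchar : CharP (Alg R) p :=
    charP_of_injective_algebraMap (algebraMap (ZMod p) (Alg R)).injective p
  have hone : ∀ r ∈ Set.range g, FreeGroup.lift
      (fun x => unitOf p (quo R (FreeAlgebra.ι (ZMod p) x)) (aexp X c x) (ha x)) r = 1 := by
    rintro _ ⟨i, rfl⟩
    exact theta_eq_one (P := p ^ (c + Fintype.card X)) hR ha (hg i) (by have := hd i; omega)
      (Nat.pow_pos (Fact.out : p.Prime).pos) (fun x => aexp_le c x)
      fun k h1 h2 => (hmem _ _).mpr (Or.inr ⟨i, ⟨h1, h2⟩, rfl⟩)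
  refine ⟨R, PresentedGroup.toGroup hone, hR, hRcard, hRlow, fun x => ?_, ?_⟩
  · exact ⟨unitOf p (quo R (FreeAlgebra.ι (ZMod p) x)) (aexp X c x) (ha x), rfl⟩
  · rw [MonoidHom.range_eq_map, ← PresentedGroup.closure_range_of, MonoidHom.map_closure,
      GolodGroup]
    congr 1
    ext u
    constructor
    · rintro ⟨_, ⟨x, rfl⟩, rfl⟩
      refine ⟨x, ?_⟩
      rw [PresentedGroup.toGroup.of]
      rfl
    · rintro ⟨x, hx⟩
      refine ⟨_, ⟨x, rfl⟩, Units.ext ?_⟩
      rw [PresentedGroup.toGroup.of, hx]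
      rfl

/-- The group is infinite, and the groups with an infinite linear image include all finitely
presented groups with a homomorphism to it whose image has finite index. -/
theorem pres_covers (p : ℕ) [Fact p.Prime] {n c : ℕ} (hn : 1 ≤ n)
    (hX : 3 * n + 2 ≤ Fintype.card X)
    (hc : Fintype.card X < p ^ c) {g : ι → FreeGroup X} {d : ι → ℕ}
    (hg : ∀ i, g i ∈ Zass p X (d i)) (hd : ∀ i, p ^ (c + Fintype.card X) < d i)
    (hs : ∀ k, {i | d i ≤ k ∧ k ≤ p ^ (c + Fintype.card X) * (g i).norm}.encard ≤ n) :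
    Infinite (PresentedGroup (Set.range g)) ∧
    ∀ (Γ : Type*) [Group Γ], Group.IsFinitelyPresented Γ →
      ∀ φ : Γ →* PresentedGroup (Set.range g), φ.range.FiniteIndex → InfLin (ZMod p) Γ := by
  obtain ⟨R, Φ, hR, hcard, hlow, hu, hΦ⟩ := pres_main p hn hc hg hd hs
  have h6 : 6 ≤ Fintype.card X + 1 := by omega
  have hnum : n * (Fintype.card X + 1) < 2 ^ (Fintype.card X + 1 - 1) := numeric hX hn
  constructor
  · have h1 := golod_infinite hR hcard hlow h6 hn hnum hX hu
    rw [← hΦ] at h1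
    exact Infinite.of_surjective _ Φ.rangeRestrict_surjective
  · intro Γ _ hΓ φ hφ
    have h1 : (Φ.comp φ).range.relIndex (GolodGroup R) ≠ 0 := by
      rw [← hΦ, MonoidHom.range_eq_map Φ, MonoidHom.range_comp, Subgroup.relIndex_map_map,
        top_sup_eq, Subgroup.relIndex_top_right]
      have : (φ.range ⊔ Φ.ker).FiniteIndex := Subgroup.finiteIndex_of_le le_sup_left
      exact this.index_ne_zero
    obtain ⟨K, ρ, hρ⟩ := exists_linear_group hR hcard hlow h6 hn hnum hX hu hΓ (Φ.comp φ) h1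
    exact ⟨⟨K, ρ, hρ⟩, not_forall.mp (not_periodic hΓ ρ hρ)⟩

omit [DecidableEq X] in
theorem countable_freeGroup : Countable (FreeGroup X) := by
  have : Function.Surjective (fun L : List (X × Bool) => FreeGroup.mk L) := by
    classical
    intro g
    exact ⟨g.toWord, FreeGroup.mk_toWord⟩
  exact this.countable

/-- The exponents of the powers. -/
def eexp (p P s : ℕ) (L : ℕ → ℕ) : ℕ → ℕ
  | 0 => s
  | j + 1 => P * (p ^ eexp p P s L j * L j) + eexp p P s L j + 1

theorem le_eexp (p P s : ℕ) (L : ℕ → ℕ) (j : ℕ) : s ≤ eexp p P s L j := by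
  induction j with
  | zero => exact le_rfl
  | succ j ih => rw [eexp]; omega

theorem eexp_lt {p : ℕ} (hp : 1 < p) (P s : ℕ) (L : ℕ → ℕ) {i j : ℕ} (hij : i < j) :
    P * (p ^ eexp p P s L i * L i) < p ^ eexp p P s L j := by
  induction j, hij using Nat.le_induction with
  | base =>
    refine lt_trans ?_ (Nat.lt_pow_self hp)
    rw [eexp]
    omega
  | succ j _ ih =>
    refine ih.trans (Nat.pow_lt_pow_right hp ?_)
    rw [eexp]
    omega

omit [Fintype X] in
theorem norm_pow_le (g : FreeGroup X) (k : ℕ) : (g ^ k).norm ≤ k * g.norm := by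
  induction k with
  | zero => simp [FreeGroup.norm_one]
  | succ k ih =>
    rw [pow_succ, add_mul, one_mul]
    exact (FreeGroup.norm_mul_le _ _).trans (Nat.add_le_add_right ih _)

/-- Sparse relators giving a `p`-group. -/
theorem exists_sparse_pgroup (p : ℕ) [Fact p.Prime] (c : ℕ) :
    ∃ (g : ℕ → FreeGroup X) (d : ℕ → ℕ), (∀ i, g i ∈ Zass p X (d i)) ∧
      (∀ i, p ^ (c + Fintype.card X) < d i) ∧
      (∀ k, {i | d i ≤ k ∧ k ≤ p ^ (c + Fintype.card X) * (g i).norm}.encard ≤ (1 : ℕ)) ∧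
      IsPGroup p (PresentedGroup (Set.range g)) := by
  have := countable_freeGroup (X := X)
  obtain ⟨w, hw⟩ := exists_surjective_nat (FreeGroup X)
  have hp : 1 < p := (Fact.out : p.Prime).one_lt
  let P := p ^ (c + Fintype.card X)
  let s := c + Fintype.card X + 1
  let L : ℕ → ℕ := fun j => (w j).norm
  let e : ℕ → ℕ := eexp p P s L
  have hlt : ∀ i j, i < j → P * (w i ^ p ^ e i).norm < p ^ e j := fun i j hij =>
    lt_of_le_of_lt (Nat.mul_le_mul_left P (norm_pow_le (w i) (p ^ e i))) (eexp_lt hp P s L hij)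
  refine ⟨fun j => w j ^ p ^ e j, fun j => p ^ e j, fun i => ?_, fun i => ?_, fun k => ?_, ?_⟩
  · refine Subgroup.subset_closure ⟨0, e i, by rw [zero_add, one_mul], w i, ?_, rfl⟩
    exact Subgroup.mem_top _
  · refine Nat.pow_lt_pow_right hp ?_
    have := le_eexp p P s L i
    change c + Fintype.card X < eexp p P s L i
    omega
  · rw [Nat.cast_one, Set.encard_le_one_iff]
    rintro i j ⟨hi1, hi2⟩ ⟨hj1, hj2⟩
    rcases lt_trichotomy i j with h | h | h
    · have := hlt i j h
      have h3 : k ≤ P * (w i ^ p ^ e i).norm := hi2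
      have h4 : p ^ e j ≤ k := hj1
      omega
    · exact h
    · have := hlt j i h
      have h3 : k ≤ P * (w j ^ p ^ e j).norm := hj2
      have h4 : p ^ e i ≤ k := hi1
      omega
  · intro q
    obtain ⟨g, rfl⟩ := PresentedGroup.mk_surjective _ q
    obtain ⟨j, rfl⟩ := hw g
    refine ⟨e j, ?_⟩
    rw [← map_pow]
    exact PresentedGroup.one_of_mem ⟨j, rfl⟩

end Vale.Agent.P192.H584
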