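import Vale.Agent.P192.R2.H584.Block

/-!
# P192: the periodic module over `F[t]`
-/

namespace Vale.Agent.P192.H584

open Module Polynomial

variable {F : Type*} [Field F] {X : Type*}

/-- The functional with values in `F[t]`. -/
noncomputable def Lamb (lam : List X → F) (P : ℕ) : List X → F[X] :=
  fun w => monomial (w.length / P) (bigS lam P (w.length / P) w)

theorem ev_monomial (q : ℕ) (φ : List X → F) (a : FreeAlgebra F X) :
    ev F[X] (fun v => monomial q (φ v)) a = monomial q (ev F φ a) := by
  have : ev F[X] (fun v => monomial q (φ v)) = (monomial q : F →ₗ[F] F[X]) ∘ₗ (ev F φ) := by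
    refine lin_ext fun w => ?_
    rw [LinearMap.comp_apply, ev_word, ev_word]
  rw [this, LinearMap.comp_apply]

/-- The module spanned by the translates of `φ`. -/
noncomputable def Qm (F : Type*) [Field F] {X : Type*} (φ : List X → F[X]) : Submodule F[X] (List X → F[X]) :=
  Submodule.span F[X] (Set.range fun a : List X => (fun w => φ (w ++ a)))

theorem Phi_word' (a : List X) (φ : List X → F[X]) :
    Phi F[X] (word F a) φ = fun w => φ (w ++ a) := by
  funext w
  exact Phi_word F[X] a φ w

theorem Phi_mem_Qm (φ : List X → F[X]) (c : FreeAlgebra F X) : Phi F[X] c φ ∈ Qm F φ := by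
  have h : c ∈ Submodule.span F (Set.range (word F : List X → FreeAlgebra F X)) := by
    rw [span_word]; trivial
  induction h using Submodule.span_induction with
  | mem a h1 =>
    obtain ⟨u, rfl⟩ := h1
    rw [Phi_word']
    exact Submodule.subset_span ⟨u, rfl⟩
  | zero => rw [map_zero]; exact Submodule.zero_mem _
  | add a b _ _ ha hb =>
    rw [map_add, LinearMap.add_apply]
    exact Submodule.add_mem _ ha hb
  | smul c a _ ha =>
    rw [map_smul, LinearMap.smul_apply, ← algebraMap_smul F[X] c]
    exact Submodule.smul_mem _ _ ha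

theorem Phi_maps_Qm (φ : List X → F[X]) (c : FreeAlgebra F X) {ψ : List X → F[X]}
    (hψ : ψ ∈ Qm F φ) : Phi F[X] c ψ ∈ Qm F φ := by
  induction hψ using Submodule.span_induction with
  | mem a h1 =>
    obtain ⟨u, rfl⟩ := h1
    change Phi F[X] c (fun w => φ (w ++ u)) ∈ _
    rw [← Phi_word', ← Module.End.mul_apply, ← map_mul]
    exact Phi_mem_Qm φ _
  | zero => rw [map_zero]; exact Submodule.zero_mem _
  | add a b _ _ ha hb => rw [map_add]; exact Submodule.add_mem _ ha hb
  | smul c a _ ha => rw [map_smul]; exact Submodule.smul_mem _ _ ha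

/-- The action of the free algebra on `Qm`. -/
noncomputable def repQ (φ : List X → F[X]) : FreeAlgebra F X →ₐ[F] Module.End F[X] (Qm F φ) :=
  FreeAlgebra.lift F fun x => (Phi F[X] (FreeAlgebra.ι F x)).restrict
    (fun _ h => Phi_maps_Qm φ _ h)

theorem repQ_apply (φ : List X → F[X]) (c : FreeAlgebra F X) (q : Qm F φ) :
    (repQ φ c q : List X → F[X]) = Phi F[X] c q := by
  induction c using FreeAlgebra.induction generalizing q with
  | grade0 r =>
    rw [AlgHom.commutes, AlgHom.commutes]
    rfl
  | grade1 x =>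
    rw [repQ, FreeAlgebra.lift_ι_apply]
    rfl
  | mul a b ha hb =>
    rw [map_mul, map_mul, Module.End.mul_apply, Module.End.mul_apply, ha, hb]
  | add a b ha hb =>
    rw [map_add, map_add, LinearMap.add_apply, LinearMap.add_apply, Submodule.coe_add, ha, hb]

theorem Qm_finite [Finite X] {lam : List X → F} {P : ℕ} (hP : 0 < P)
    (hsupp : ∀ w : List X, w.length ≠ P → lam w = 0) : Module.Finite F[X] (Qm F (Lamb lam P)) := by
  have hfin : {a : List X | a.length < P}.Finite := List.finite_length_lt X P
  have hle : Qm F (Lamb lam P) ≤ Submodule.span F[X]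
      ((fun a : List X => (fun w => Lamb lam P (w ++ a))) '' {a : List X | a.length < P}) := by
    refine Submodule.span_le.mpr ?_
    rintro _ ⟨a, rfl⟩
    induction' hn : a.length using Nat.strong_induction_on with n ih generalizing a
    by_cases hlt : n < P
    · exact Submodule.subset_span ⟨a, by rw [← hn] at hlt; exact hlt, rfl⟩
    · obtain ⟨a1, a2, rfl, ha2⟩ : ∃ a1 a2 : List X, a = a1 ++ a2 ∧ a2.length = P :=
        ⟨a.take (a.length - P), a.drop (a.length - P), by simp, by
          rw [List.length_drop]; omega⟩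
      have h1 : (fun w => Lamb lam P (w ++ (a1 ++ a2))) =
          (monomial 1 (lam a2)) • (fun w => Lamb lam P (w ++ a1)) := by
        funext w
        rw [Pi.smul_apply, smul_eq_mul, Lamb, Lamb, ← List.append_assoc]
        have e : (w ++ a1 ++ a2).length / P = (w ++ a1).length / P + 1 := by
          rw [List.length_append (as := w ++ a1), ha2, Nat.add_div_right _ hP]
        simp only [e]
        rw [bigS_snoc hsupp ha2, monomial_mul_monomial]
        rw [add_comm 1, mul_comm (lam a2)]
      change (fun w => Lamb lam P (w ++ (a1 ++ a2))) ∈ _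
      rw [h1]
      refine Submodule.smul_mem _ _ (ih a1.length ?_ a1 rfl)
      rw [← hn, List.length_append]
      omega
  have hfg : (Submodule.span F[X] ((fun a : List X => (fun w => Lamb lam P (w ++ a))) ''
      {a : List X | a.length < P})).FG := Submodule.fg_span (hfin.image _)
  have h2 : Qm F (Lamb lam P) = Submodule.span F[X]
      ((fun a : List X => (fun w => Lamb lam P (w ++ a))) '' {a : List X | a.length < P}) :=
    le_antisymm hle (Submodule.span_mono (by rintro _ ⟨a, -, rfl⟩; exact ⟨a, rfl⟩))
  rw [Module.Finite.iff_fg, h2]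
  exact hfg

variable {R : ℕ → Finset (FreeAlgebra F X)} {L M : ℕ → Submodule F (List X → F)} {N : ℕ}
  {lam : List X → F}

theorem repQ_rel (hlam : Lam R N L M lam) (h : Good R lD mD N N L M)
    (hR : ∀ k, ∀ f ∈ R k, f ∈ Homog F X k) (hR0 : R 0 = ∅) {k : ℕ} (hk : k ≤ N)
    {f : FreeAlgebra F X} (hf : f ∈ R k) : repQ (Lamb lam (2 * N)) f = 0 := by
  have key : ∀ ψ ∈ Qm F (Lamb lam (2 * N)), Phi F[X] f ψ = 0 := by
    intro ψ hψ
    induction hψ using Submodule.span_induction with
    | mem a h1 =>
      obtain ⟨u, rfl⟩ := h1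
      change Phi F[X] f (fun w => Lamb lam (2 * N) (w ++ u)) = 0
      rw [← Phi_word', ← Module.End.mul_apply, ← map_mul]
      funext w
      rw [Phi_apply, ← mul_assoc, ev_shift]
      have h2 : ev F[X] (fun v => Lamb lam (2 * N) (w ++ v ++ u)) f =
          ev F[X] (fun v => monomial ((w.length + k + u.length) / (2 * N))
            (bigS lam (2 * N) ((w.length + k + u.length) / (2 * N)) (w ++ v ++ u))) f := by
        refine ev_congr _ (hR k f hf) fun v hv => ?_
        have e : (w ++ v ++ u).length = w.length + k + u.length := by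
          simp only [List.length_append, hv]
        rw [Lamb, e]
      rw [h2, ev_monomial, bigS_rel hlam h hR hR0 hk hf, monomial_zero_right]
      rfl
    | zero => rw [map_zero]
    | add a b _ _ ha hb => rw [map_add, ha, hb, add_zero]
    | smul c a _ ha => rw [map_smul, ha, smul_zero]
  ext q : 1
  apply Subtype.ext
  rw [repQ_apply, key _ q.2]
  rfl

theorem bigS_flatten {P : ℕ} {u : List X} (hu : u.length = P) (s : ℕ) :
    bigS lam P s (List.replicate s u).flatten = lam u ^ s := by
  induction s with
  | zero => simp [bigS]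
  | succ s ih =>
    rw [List.replicate_succ, List.flatten_cons, bigS_append hu, ih, pow_succ, mul_comm]

theorem not_finite_of_monomials {W : Submodule F F[X]} (h : ∀ s : ℕ, ∃ g ∈ W, g.natDegree = s) :
    ¬ Module.Finite F W := by
  intro hfin
  rw [Module.Finite.iff_fg] at hfin
  obtain ⟨S, hS⟩ := hfin
  obtain ⟨g, hgW, hg⟩ := h (S.sup natDegree + 1)
  have hle : W ≤ degreeLE F (S.sup natDegree : ℕ) := by
    rw [← hS, Submodule.span_le]
    intro f hf
    rw [SetLike.mem_coe, mem_degreeLE]
    exact degree_le_of_natDegree_le (Finset.le_sup (f := natDegree) hf)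
  have h1 := mem_degreeLE.mp (hle hgW)
  have h2 := natDegree_le_of_degree_le h1
  omega

/-- The matrix representation. -/
theorem exists_rep [Fintype X] {n d : ℕ} (hR : ∀ k, ∀ f ∈ R k, f ∈ Homog F X k)
    (hcard : ∀ k, (R k).card ≤ n) (hd : ∀ k < d, R k = ∅) (h6 : 6 ≤ d) (hn : 1 ≤ n)
    (hnd : n * d < 2 ^ (d - 1)) (hX : 3 * n + 2 ≤ Fintype.card X) (N : ℕ) :
    ∃ (K : ℕ) (τ : FreeAlgebra F X →ₐ[F] Matrix (Fin K) (Fin K) F[X]),
      (∀ k ≤ N, ∀ f ∈ R k, τ f = 0) ∧ ¬ Module.Finite F (LinearMap.range τ.toLinearMap) := by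
  wlog hdN : d ≤ N generalizing N
  · obtain ⟨K, τ, h1, h2⟩ := this (N + d) (by omega)
    exact ⟨K, τ, fun k hk => h1 k (by omega), h2⟩
  have hR0 : R 0 = ∅ := hd 0 (by omega)
  obtain ⟨L, M, h⟩ := exists_good hR hcard hd h6 hn hX N
  obtain ⟨lam, hlam⟩ := exists_lam h hR hcard hd h6 hnd hdN
  have hP : 0 < 2 * N := by omega
  have hfin := Qm_finite hP hlam.supp
  have hfree : Module.Free F[X] (Qm F (Lamb lam (2 * N))) := inferInstance
  let b := Module.finBasis F[X] (Qm F (Lamb lam (2 * N)))
  let e := (LinearMap.toMatrixAlgEquiv b).restrictScalars F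
  refine ⟨_, e.toAlgHom.comp (repQ (Lamb lam (2 * N))), fun k hk f hf => ?_, ?_⟩
  · rw [AlgHom.comp_apply, repQ_rel hlam h hR hR0 hk hf, map_zero]
  · intro hfd
    have hmem : Lamb lam (2 * N) ∈ Qm F (Lamb lam (2 * N)) := by
      have := Phi_mem_Qm (F := F) (Lamb lam (2 * N)) 1
      rwa [map_one] at this
    let G : Matrix (Fin (finrank F[X] (Qm F (Lamb lam (2 * N)))))
        (Fin (finrank F[X] (Qm F (Lamb lam (2 * N))))) F[X] →ₗ[F] F[X] :=
      { toFun := fun A => ((e.symm A) ⟨_, hmem⟩ : List X → F[X]) []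
        map_add' := fun A B => by rw [map_add]; rfl
        map_smul' := fun c A => by rw [map_smul]; rfl }
    have hG : ∀ a, G ((e.toAlgHom.comp (repQ (Lamb lam (2 * N)))) a) =
        ev F[X] (Lamb lam (2 * N)) a := by
      intro a
      change ((e.symm (e (repQ (Lamb lam (2 * N)) a))) ⟨_, hmem⟩ : List X → F[X]) [] = _
      rw [AlgEquiv.symm_apply_apply, repQ_apply]
      rfl
    have hW : Module.Finite F (Submodule.map G (LinearMap.range
        (e.toAlgHom.comp (repQ (Lamb lam (2 * N)))).toLinearMap)) := inferInstance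
    refine not_finite_of_monomials ?_ hW
    intro s
    obtain ⟨u, hu⟩ := hlam.ne
    have hulen : u.length = 2 * N := by
      by_contra hne
      exact hu (hlam.supp u hne)
    refine ⟨ev F[X] (Lamb lam (2 * N)) (word F (List.replicate s u).flatten),
      ⟨_, ⟨word F (List.replicate s u).flatten, rfl⟩, hG _⟩, ?_⟩
    have hlen : (List.replicate s u).flatten.length / (2 * N) = s := by
      rw [List.length_flatten, List.map_replicate, List.sum_replicate, hulen, smul_eq_mul,
        Nat.mul_div_cancel _ hP]
    rw [ev_word, Lamb, hlen, bigS_flatten hulen, natDegree_monomial_eq _ (pow_ne_zero _ hu)]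

end Vale.Agent.P192.H584
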