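import Vale.Agent.P192.R2.H584.PGrp
import Vale.Agent.P192.R2.H584.DefsZ

/-!
# P192: the Zassenhaus filtration of a free group and units of graded algebras
-/

namespace Vale.Agent.P192.H584

open Polynomial commutatorElement

section filtration

variable {C : Type*} [Ring C]

/-- The units congruent to `1` modulo the `d`-th power of the central element `T`. -/
def Vd (T : C) (hT : ∀ c, Commute T c) (d : ℕ) : Subgroup Cˣ where
  carrier := {u | ∃ g, (u : C) = 1 + T ^ d * g}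
  one_mem' := ⟨0, by simp⟩
  mul_mem' := by
    rintro u v ⟨g, hg⟩ ⟨h, hh⟩
    refine ⟨g + h + T ^ d * g * h, ?_⟩
    have h1 : T ^ d * g * (T ^ d * h) = T ^ d * (T ^ d * g * h) := by
      rw [← mul_assoc, mul_assoc (T ^ d) g (T ^ d), ← ((hT g).pow_left d).eq]
      simp only [mul_assoc]
    rw [Units.val_mul, hg, hh, add_mul, one_mul, mul_add, mul_one, h1, mul_add, mul_add]
    abel
  inv_mem' := by
    rintro u ⟨g, hg⟩
    refine ⟨-((u⁻¹ : Cˣ) * g), ?_⟩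
    have h1 : ((u⁻¹ : Cˣ) : C) * (u : C) = 1 := u.inv_mul
    rw [hg, mul_add, mul_one, ← mul_assoc, ← ((hT _).pow_left d).eq, mul_assoc] at h1
    rw [mul_neg, ← sub_eq_add_neg]
    exact eq_sub_of_add_eq h1

theorem mem_Vd {T : C} {hT : ∀ c, Commute T c} {d : ℕ} {u : Cˣ} :
    u ∈ Vd T hT d ↔ ∃ g, (u : C) = 1 + T ^ d * g := Iff.rfl

theorem comm_mem_Vd {T : C} {hT : ∀ c, Commute T c} {a b : ℕ} {u v : Cˣ}
    (hu : u ∈ Vd T hT a) (hv : v ∈ Vd T hT b) : ⁅u, v⁆ ∈ Vd T hT (a + b) := by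
  obtain ⟨g, hg⟩ := hu
  obtain ⟨h, hh⟩ := hv
  have hTg := ((hT g).pow_left b).eq
  have hTh := ((hT h).pow_left a).eq
  have h1 : (u : C) * v = v * u + T ^ (a + b) * (g * h - h * g) := by
    have h2 : T ^ a * g * (T ^ b * h) = T ^ (a + b) * (g * h) := by
      rw [pow_add, mul_assoc, ← mul_assoc g, ← hTg]
      simp only [mul_assoc]
    have h3 : T ^ b * h * (T ^ a * g) = T ^ (a + b) * (h * g) := by
      rw [add_comm a b, pow_add, mul_assoc, ← mul_assoc h, ← hTh]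
      simp only [mul_assoc]
    rw [hg, hh, mul_sub, add_mul, one_mul, mul_add, mul_one, h2, add_mul, one_mul, mul_add,
      mul_one, h3]
    abel
  refine ⟨(g * h - h * g) * ((u⁻¹ : Cˣ) * (v⁻¹ : Cˣ)), ?_⟩
  have h4 : ((⁅u, v⁆ : Cˣ) : C) = (u : C) * v * ((u⁻¹ : Cˣ) * (v⁻¹ : Cˣ)) := by
    rw [commutatorElement_def]
    simp only [Units.val_mul, mul_assoc]
  have h5 : (v : C) * u * ((u⁻¹ : Cˣ) * (v⁻¹ : Cˣ)) = 1 := by
    rw [mul_assoc, ← mul_assoc (u : C), Units.mul_inv, one_mul, Units.mul_inv]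
  rw [h4, h1, add_mul, h5, mul_assoc]

theorem pow_mem_Vd {T : C} {hT : ∀ c, Commute T c} {p : ℕ} [Fact p.Prime] [CharP C p] {a : ℕ}
    {u : Cˣ} (hu : u ∈ Vd T hT a) (b : ℕ) : u ^ p ^ b ∈ Vd T hT (a * p ^ b) := by
  obtain ⟨g, hg⟩ := hu
  refine ⟨g ^ p ^ b, ?_⟩
  rw [Units.val_pow_eq_pow_val, hg, add_pow_char_pow_of_commute _ _ (Commute.one_left _), one_pow,
    ((hT g).pow_left a).mul_pow, pow_mul]

theorem Vd_anti {T : C} {hT : ∀ c, Commute T c} {a b : ℕ} (h : a ≤ b) :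
    Vd T hT b ≤ Vd T hT a := by
  rintro u ⟨g, hg⟩
  refine ⟨T ^ (b - a) * g, ?_⟩
  rw [hg, ← mul_assoc, ← pow_add, Nat.add_sub_cancel' h]

theorem zass_le {T : C} {hT : ∀ c, Commute T c} {p : ℕ} [Fact p.Prime] [CharP C p]
    {X : Type*} (θ : FreeGroup X →* Cˣ) (hθ : ∀ x, θ (FreeGroup.of x) ∈ Vd T hT 1) (d : ℕ) :
    Zass p X d ≤ (Vd T hT d).comap θ := by
  have h1 : (⊤ : Subgroup (FreeGroup X)) ≤ (Vd T hT 1).comap θ := by
    rw [← FreeGroup.closure_range_of, Subgroup.closure_le]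
    rintro _ ⟨x, rfl⟩
    exact hθ x
  have h2 : ∀ a, Subgroup.lowerCentralSeries (⊤ : Subgroup (FreeGroup X)) a ≤ (Vd T hT (a + 1)).comap θ := by
    intro a
    induction a with
    | zero => exact le_trans le_top h1
    | succ a ih =>
      rw [Subgroup.lowerCentralSeries_succ]
      refine (Subgroup.closure_le _).mpr ?_
      rintro _ ⟨g, hg, h, -, rfl⟩
      rw [SetLike.mem_coe, Subgroup.mem_comap, map_commutatorElement]
      exact comm_mem_Vd (ih hg) (h1 (Subgroup.mem_top h))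
  refine (Subgroup.closure_le _).mpr ?_
  rintro _ ⟨a, b, hab, h, hh, rfl⟩
  rw [SetLike.mem_coe, Subgroup.mem_comap, map_pow]
  exact Vd_anti hab (pow_mem_Vd (h2 a hh) b)

end filtration

end Vale.Agent.P192.H584
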